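import Vale.Agent.P154.Hel.Burn.Step2

/-!
The chain of states of the burn-in along the laws of the tree at `(d, λ) = (4, -1/2)`.
-/

namespace Vale.Agent.P154.Hel

open Finset

noncomputable section

namespace Burn

open TM

variable {C : Cfg} {T : Tabs} {Y Y' n : ℕ}

/-- A state is good at a level: its law dominates the law of the tree. -/
structure Good (C : Cfg) (T : Tabs) (n Y : ℕ) : Prop where
  rho : ∀ i, 0 ≤ rhoOf C T Y i
  dom : DomL (chanLaw (-(1 / 2)) (Lk 4 (-(1 / 2)) n)) (QS C T Y)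

theorem Good.next (TS : TabsSem C T) (h : Good C T n Y) (hc : checkStep C T Y Y' = true) :
    Good C T (n + 1) Y' := by
  obtain ⟨hρ', hD⟩ := step_sound TS h.rho hc
  refine ⟨hρ', ?_⟩
  have hL : NL (chanLaw (-(1 / 2)) (Lk 4 (-(1 / 2)) n)) :=
    ((isLawN_Lk 4 le_rfl (by norm_num) n).chan le_rfl (by norm_num)).toNL
  have hQ := QS_NL TS h.rho
  have h2 := (DomL.powN hL hQ h.dom 4).chan (lam := -(1 / 2)) le_rfl (by norm_num)
  have h3 := h2.comp_equiv_left (splitEquiv 4 n)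
  have h4 := h3.trans hD
  intro C0 F hF
  rw [Lk_succ]
  exact h4 C0 F hF

/-! ### The initial state -/

theorem y0_eq (C : Cfg) (T : Tabs) :
    y0Of C T = ∑ t ∈ range (T.labs.length + 3),
      (if T.labs.length ≤ t then 2 ^ (C.w - 1) else 0) * (2 ^ C.w) ^ t := by
  rw [Finset.sum_range_add]
  have e1 : ∑ x ∈ range T.labs.length,
      (if T.labs.length ≤ x then 2 ^ (C.w - 1) else 0) * (2 ^ C.w) ^ x = 0 := by
    refine Finset.sum_eq_zero fun x hx => ?_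
    rw [if_neg (by have := Finset.mem_range.mp hx; omega), zero_mul]
  rw [e1, zero_add]
  simp only [Nat.le_add_right, if_true]
  simp only [Finset.sum_range_succ, Finset.sum_range_zero, zero_add]
  show 2 ^ (C.w - 1) * (1 + 2 ^ C.w + 2 ^ (2 * C.w)) * 2 ^ (C.w * T.labs.length) = _
  simp only [pow_add, pow_mul, add_zero, pow_one, pow_two]
  rw [mul_pow]
  ring

theorem cOf_y0 (hw : 0 < C.w) {t : ℕ} (ht : t < T.labs.length + 3) :
    cOf C (y0Of C T) t = if T.labs.length ≤ t then 2 ^ (C.w - 1) else 0 := by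
  unfold cOf
  rw [y0_eq]
  refine dig_sum (by positivity) _ (fun t => if T.labs.length ≤ t then 2 ^ (C.w - 1) else 0) (fun j _ => ?_) t ht
  split_ifs
  · exact Nat.pow_lt_pow_right (by norm_num) (by omega)
  · positivity


/-- The initial state is good. -/
theorem good_zero (TS : TabsSem C T) : Good C T 0 (y0Of C T) := by
  have hw := TS.hw
  have hc : ∀ (g : ℕ → ℝ), ∑ t ∈ range (T.labs.length + 3),
      ((cOf C (y0Of C T) t : ℝ) / 2 ^ C.w) * g t = ∑ i : Fin 3, (1 / 2) * g (T.labs.length + i) := by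
    intro g
    rw [sum_range3]
    have e1 : ∑ t : Fin T.labs.length, ((cOf C (y0Of C T) t : ℝ) / 2 ^ C.w) * g t = 0 := by
      refine Finset.sum_eq_zero fun t _ => ?_
      rw [cOf_y0 hw (by have := t.2; omega), if_neg (by have := t.2; omega)]
      simp
    rw [e1, zero_add]
    refine Finset.sum_congr rfl fun i _ => ?_
    rw [cOf_y0 hw (by have := i.2; omega), if_pos (by omega)]
    congr 1
    have e2 : (2 : ℝ) ^ C.w = 2 ^ (C.w - 1) * 2 := by
      rw [← pow_succ]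
      congr 1
      omega
    rw [e2]
    push_cast
    field_simp
  have hρ : ∀ i, rhoOf C T (y0Of C T) i = 0 := by
    intro i
    unfold rhoOf
    rw [hc (fun t => vT C T t i)]
    simp only [vT_S]
    rw [Fin.sum_univ_three]
    unfold Sv
    fin_cases i <;> simp <;> norm_num
  refine ⟨fun i => (hρ i).ge, fun C0 F hF => ?_⟩
  rw [QS_sum_F hF TS (fun i => (hρ i).ge), hc (fun t => F (vT C T t))]
  simp only [hρ, zero_mul, Finset.sum_const_zero, add_zero, vT_S]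
  have e1 : ∀ τ, chanLaw (-(1 / 2)) (Lk 4 (-(1 / 2)) 0) τ
      = fun j => (1 / 2) * Sv (zeroEquiv 4 τ) j := by
    intro τ
    funext j
    rw [← T_vtx]
    rfl
  simp only [e1]
  have e2 : ∀ t : Fin 3, F (fun j => (1 / 2) * Sv t j) = (1 / 2) * F (Sv t) := fun t =>
    hF.smul _ _ (by norm_num) (Sv_nonneg t)
  simp only [e2]
  exact (Equiv.sum_comp (zeroEquiv 4) (fun t : Fin 3 => (1 / 2) * F (Sv t))).le

/-! ### The final bound -/

/-- The centre. -/
def cs : Fin 3 → ℝ := fun _ => 1 / 3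

theorem adm_cs : AdmS cs where
  nonneg := fun i => by
    unfold cs
    norm_num
  sum := by
    unfold cs
    norm_num

theorem Good.Ht_ge (TS : TabsSem C T) (h : Good C T n Y) {s : Fin 3 → ℝ} (hs : AdmS s) :
    ∑ ω, mono s (QS C T Y ω) ≤ Ht s (chanLaw (-(1 / 2)) (Lk 4 (-(1 / 2)) n)) := by
  have h1 := h.dom 3 (dfc s) (ch_dfc hs)
  unfold dfc at h1
  rw [Finset.sum_sub_distrib, Finset.sum_sub_distrib] at h1
  have hL : NL (chanLaw (-(1 / 2)) (Lk 4 (-(1 / 2)) n)) :=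
    ((isLawN_Lk 4 le_rfl (by norm_num) n).chan le_rfl (by norm_num)).toNL
  rw [hL.sum_mass, (QS_NL TS h.rho).sum_mass] at h1
  unfold Ht
  linarith

theorem cube_root_zpow {ρ : ℝ} (hρ : 0 < ρ) (k : ℤ) : ((ρ ^ 3) ^ k : ℝ) ^ ((1 : ℝ) / 3) = ρ ^ k := by
  have e : ((ρ ^ 3) ^ k : ℝ) = (ρ ^ k) ^ 3 := by
    rw [← zpow_natCast, ← zpow_natCast, ← zpow_mul, ← zpow_mul, mul_comm]
  rw [e]
  have := Real.pow_rpow_inv_natCast (x := ρ ^ k) (n := 3) (zpow_pos hρ k).le (by norm_num)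
  have e3 : (1 : ℝ) / 3 = ((3 : ℕ) : ℝ)⁻¹ := by norm_num
  rw [e3]
  exact this

theorem mono_grid {ρ : ℝ} (hρ : 0 < ρ) (hr : ratio C = ρ ^ 3) {t : ℕ} (ht : t < T.labs.length) :
    mono cs (vT C T t)
      = ρ ^ ((T.labs.getD t 0 / C.N : ℕ) + (T.labs.getD t 0 % C.N : ℕ) - 2 * (C.R : ℤ)) := by
  rw [vT_lt ht]
  unfold mono cs
  rw [Fin.prod_univ_three]
  simp only [Matrix.cons_val_zero, Matrix.cons_val_one, Matrix.cons_val, Real.one_rpow, one_mul]
  unfold eT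
  rw [hr, cube_root_zpow hρ, cube_root_zpow hρ, ← zpow_add₀ hρ.ne']
  congr 1
  ring

/-- The centre monomial of the law of a state is at least the value on the grid. -/
theorem mono_sum_ge (TS : TabsSem C T) (hρ : ∀ i, 0 ≤ rhoOf C T Y i) {r : ℝ} (h0 : 0 < r)
    (hr : ratio C = r ^ 3) :
    ∑ t : Fin T.labs.length, ((cOf C Y t : ℝ) / 2 ^ C.w)
        * r ^ ((T.labs.getD t 0 / C.N : ℕ) + (T.labs.getD t 0 % C.N : ℕ) - 2 * (C.R : ℤ))
      ≤ ∑ ω, mono cs (QS C T Y ω) := by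
  have hN := QS_NL TS hρ
  rw [sum_Om]
  have h1 : ∀ t : Fin T.labs.length, mono cs (QS C T Y (.inl t))
      = ((cOf C Y t : ℝ) / 2 ^ C.w)
        * r ^ ((T.labs.getD t 0 / C.N : ℕ) + (T.labs.getD t 0 % C.N : ℕ) - 2 * (C.R : ℤ)) := by
    intro t
    have e : QS C T Y (.inl t) = fun j => ((cOf C Y t : ℝ) / 2 ^ C.w) * vT C T t j := by
      funext j
      exact QS_inl t j
    rw [e, mono_smul adm_cs (cOf_div_nonneg _) (vT_nonneg TS (by have := t.2; omega)),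
      mono_grid h0 hr t.2]
  simp only [h1]
  have h2 : 0 ≤ ∑ i, mono cs (QS C T Y (.inr (.inl i))) :=
    Finset.sum_nonneg fun i _ => mono_nonneg (hN.nonneg _)
  have h3 : 0 ≤ ∑ i, mono cs (QS C T Y (.inr (.inr i))) :=
    Finset.sum_nonneg fun i _ => mono_nonneg (hN.nonneg _)
  linarith

/-- The bound of the burn-in from the final check. -/
theorem burn_of_final (TS : TabsSem C T) (h : Good C T n Y) {a b θn θd : ℕ} (ha : 0 < a) (hb : 0 < b)
    (hr : ratio C = ((a : ℝ) / b) ^ 3) (hθ : θn ≤ θd) (hθd : 0 < θd)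
    (hf : finalCheck C T a b θn θd Y = true) :
    1 - Ht cs (chanLaw (-(1 / 2)) (Lk 4 (-(1 / 2)) n)) ≤ (θn : ℝ) / θd := by
  have ha' : (0 : ℝ) < a := by exact_mod_cast ha
  have hb' : (0 : ℝ) < b := by exact_mod_cast hb
  have hθd' : (0 : ℝ) < θd := by exact_mod_cast hθd
  have h0 : (0 : ℝ) < (a : ℝ) / b := div_pos ha' hb'
  have h1 := Good.Ht_ge TS h adm_cs
  have h2 := mono_sum_ge TS h.rho h0 hr
  unfold finalCheck at hf
  simp only [Nat.ble_eq, foldY_eq, zero_add] at hf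
  have hf' : (((θd - θn) * (2 ^ C.w * (a * b) ^ (2 * C.R)) : ℕ) : ℝ)
      ≤ ((θd * ∑ t ∈ range T.labs.length, cOf C Y t * (a ^ (labI T t / C.N + labI T t % C.N)
        * b ^ (4 * C.R - (labI T t / C.N + labI T t % C.N))) : ℕ) : ℝ) := by
    exact_mod_cast hf
  rw [← Fin.sum_univ_eq_sum_range (fun t => cOf C Y t * (a ^ (labI T t / C.N + labI T t % C.N)
        * b ^ (4 * C.R - (labI T t / C.N + labI T t % C.N)))) T.labs.length] at hf'
  have hE : ∀ t : Fin T.labs.length, ((cOf C Y t : ℝ) / 2 ^ C.w)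
        * ((a : ℝ) / b) ^ ((T.labs.getD t 0 / C.N : ℕ) + (T.labs.getD t 0 % C.N : ℕ) - 2 * (C.R : ℤ))
      = ((cOf C Y t : ℝ) * ((a : ℝ) ^ (labI T t / C.N + labI T t % C.N)
        * (b : ℝ) ^ (4 * C.R - (labI T t / C.N + labI T t % C.N))))
          / (2 ^ C.w * ((a : ℝ) * b) ^ (2 * C.R)) := by
    intro t
    have hl := TS.ok.hlabs _ (CfgOK.lab_mem t.2)
    have e0 : T.labs.getD t 0 = labI T t := rfl
    rw [e0] at hl ⊢
    set u := labI T t / C.N + labI T t % C.N with hu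
    have hu4 : u ≤ 4 * C.R := by omega
    have e1 : (((labI T t / C.N : ℕ) : ℤ) + ((labI T t % C.N : ℕ) : ℤ) - 2 * (C.R : ℤ))
        = (u : ℤ) - ((2 * C.R : ℕ) : ℤ) := by
      rw [hu]
      push_cast
      ring
    rw [e1, zpow_sub₀ h0.ne', zpow_natCast, zpow_natCast, div_pow, div_pow]
    have e2 : (b : ℝ) ^ (2 * C.R) * (b : ℝ) ^ (2 * C.R) = (b : ℝ) ^ (4 * C.R - u) * (b : ℝ) ^ u := by
      rw [← pow_add, ← pow_add]
      congr 1
      omega
    have e3 : (b : ℝ) ^ (4 * C.R - u) = (b : ℝ) ^ (2 * C.R) * (b : ℝ) ^ (2 * C.R) / (b : ℝ) ^ u := by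
      rw [e2]
      field_simp
    rw [e3, mul_pow]
    field_simp
  have hsum : 1 - (θn : ℝ) / θd ≤ ∑ t : Fin T.labs.length, ((cOf C Y t : ℝ) / 2 ^ C.w)
        * ((a : ℝ) / b) ^ ((T.labs.getD t 0 / C.N : ℕ) + (T.labs.getD t 0 % C.N : ℕ) - 2 * (C.R : ℤ)) := by
    simp only [hE]
    rw [← Finset.sum_div]
    have hD : (0 : ℝ) < 2 ^ C.w * ((a : ℝ) * b) ^ (2 * C.R) := by positivity
    rw [le_div_iff₀ hD]
    push_cast [Nat.cast_sub hθ] at hf'
    have e4 : (1 - (θn : ℝ) / θd) * (2 ^ C.w * ((a : ℝ) * b) ^ (2 * C.R))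
        = (((θd : ℝ) - θn) * (2 ^ C.w * ((a : ℝ) * b) ^ (2 * C.R))) / θd := by
      field_simp
    rw [e4, div_le_iff₀ hθd', mul_comm _ (θd : ℝ)]
    exact hf'
  linarith


/-- The bound of the burn-in at the level of the law itself. -/
theorem burn_Lk {n : ℕ} {θ : ℝ} (hθ : θ ≤ 1)
    (h : 1 - Ht cs (chanLaw (-(1 / 2)) (Lk 4 (-(1 / 2)) n)) ≤ θ) :
    1 - Ht cs (Lk 4 (-(1 / 2)) (n + 1)) ≤ 1 - (1 - θ) ^ 4 := by
  rw [Ht_Lk_succ 4 le_rfl (by norm_num) n cs]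
  have h1 : 1 - θ ≤ Ht cs (chanLaw (-(1 / 2)) (Lk 4 (-(1 / 2)) n)) := by linarith
  have h2 : (1 - θ) ^ 4 ≤ (Ht cs (chanLaw (-(1 / 2)) (Lk 4 (-(1 / 2)) n))) ^ 4 :=
    pow_le_pow_left₀ (by linarith) h1 4
  linarith

end Burn

end

end Vale.Agent.P154.Hel
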