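import Vale.Agent.P154.Hel.Mono
import Vale.Agent.P154.Hel.TMDigit

/-!
Abstract tools for the burn-in: normalised families without symmetry, order between them, and the
cover lemma: a family of nonnegative vectors is dominated by rays if the rays are covered by cone
decompositions of the vectors, the rest going to the vertices.
-/

namespace Vale.Agent.P154.Hel

open Finset

noncomputable section

/-- The vertices of the orthant. -/
def vtx (t : Fin 3) : Fin 3 → ℝ := fun i => if t = i then 1 else 0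

theorem vtx_nonneg (t i : Fin 3) : 0 ≤ vtx t i := by
  unfold vtx
  split_ifs <;> norm_num

/-- Normalised families of nonnegative vectors. -/
structure NL {Ω : Type*} [Fintype Ω] (L : Ω → Fin 3 → ℝ) : Prop where
  nonneg : ∀ τ i, 0 ≤ L τ i
  norm : ∀ i, ∑ τ, L τ i = 1

section Basic

variable {Ω Ω₁ Ω₂ Ω' : Type*} [Fintype Ω] [Fintype Ω₁] [Fintype Ω₂] [Fintype Ω']

theorem IsLawN.toNL {L : Ω → Fin 3 → ℝ} (h : IsLawN L) : NL L :=
  ⟨h.nonneg, h.norm⟩

theorem NL.pow {L : Ω → Fin 3 → ℝ} (h : NL L) (k : ℕ) : NL (powLaw L k) where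
  nonneg := fun f i => Finset.prod_nonneg fun c _ => h.nonneg _ i
  norm := fun i => by
    unfold powLaw
    have := (Finset.prod_univ_sum (fun _ : Fin k => (Finset.univ : Finset Ω))
      (fun _ τ => L τ i)).symm
    simp only [Fintype.piFinset_univ] at this
    rw [this]
    simp [h.norm]

theorem NL.sum_mass {L : Ω → Fin 3 → ℝ} (h : NL L) : ∑ τ, mass (L τ) = 1 := by
  unfold mass
  rw [← Finset.sum_div, Finset.sum_add_distrib, Finset.sum_add_distrib, h.norm, h.norm, h.norm]
  norm_num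

theorem NL.chan {L : Ω → Fin 3 → ℝ} (h : NL L) {lam : ℝ} (h0 : -(1 / 2) ≤ lam) (h1 : lam ≤ 1) :
    NL (chanLaw lam L) where
  nonneg := fun τ i => T_nonneg (h.nonneg τ) h0 h1 i
  norm := fun i => by
    have e : ∀ τ, chanLaw lam L τ i = lam * L τ i + (1 - lam) * mass (L τ) := fun τ => rfl
    simp only [e]
    rw [Finset.sum_add_distrib, ← Finset.mul_sum, ← Finset.mul_sum, h.norm, h.sum_mass]
    ring

theorem CH.zero {C : ℝ} {F : (Fin 3 → ℝ) → ℝ} (h : CH C F) : F (fun _ => 0) = 0 := by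
  have := h.smul 0 (fun _ => 0) le_rfl (fun _ => le_rfl)
  simpa using this

/-- Mixing over a normalised family of the first factor. -/
theorem CH.mixN {C : ℝ} {F : (Fin 3 → ℝ) → ℝ} (hF : CH C F) {L : Ω → Fin 3 → ℝ} (h : NL L) :
    CH C (fun v => ∑ τ, F (fun i => L τ i * v i)) where
  add := fun x y hx hy => by
    rw [← Finset.sum_add_distrib]
    refine Finset.sum_le_sum fun τ _ => ?_
    have e : (fun i => L τ i * (x i + y i)) = fun i => L τ i * x i + L τ i * y i := by
      funext i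
      ring
    rw [e]
    exact hF.add _ _ (fun i => mul_nonneg (h.nonneg τ i) (hx i))
      (fun i => mul_nonneg (h.nonneg τ i) (hy i))
  smul := fun c x hc hx => by
    rw [Finset.mul_sum]
    refine Finset.sum_congr rfl fun τ _ => ?_
    have e : (fun i => L τ i * (c * x i)) = fun i => c * (L τ i * x i) := by
      funext i
      ring
    rw [e]
    exact hF.smul _ _ hc (fun i => mul_nonneg (h.nonneg τ i) (hx i))
  bound := fun x hx => by
    refine (Finset.abs_sum_le_sum_abs _ _).trans ?_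
    refine (Finset.sum_le_sum fun τ _ =>
      hF.bound _ (fun i => mul_nonneg (h.nonneg τ i) (hx i))).trans (le_of_eq ?_)
    rw [← Finset.mul_sum]
    congr 1
    unfold mass
    rw [← Finset.sum_div, Finset.sum_add_distrib, Finset.sum_add_distrib, ← Finset.sum_mul,
      ← Finset.sum_mul, ← Finset.sum_mul, h.norm, h.norm, h.norm]
    ring

theorem DomL.prod_rightN {L₁ : Ω₁ → Fin 3 → ℝ} {L₂ : Ω₂ → Fin 3 → ℝ} {L₃ : Ω' → Fin 3 → ℝ}
    (h₁ : NL L₁) (h : DomL L₂ L₃) : DomL (prodLaw L₁ L₂) (prodLaw L₁ L₃) := fun C F hF => by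
  have key := h C _ (hF.mixN h₁)
  rw [sum_prodLaw, sum_prodLaw, Finset.sum_comm]
  rw [Finset.sum_comm (s := (Finset.univ : Finset Ω₁))]
  exact key

theorem DomL.prod_leftN {L₁ : Ω₁ → Fin 3 → ℝ} {L₂ : Ω₂ → Fin 3 → ℝ} {L₃ : Ω' → Fin 3 → ℝ}
    (h₂ : NL L₂) (h : DomL L₁ L₃) : DomL (prodLaw L₁ L₂) (prodLaw L₃ L₂) := fun C F hF => by
  rw [sum_prodLaw_comm, sum_prodLaw_comm]
  exact h C _ (hF.mixN h₂)

theorem DomL.powN {L : Ω → Fin 3 → ℝ} {L' : Ω' → Fin 3 → ℝ} (hL : NL L) (hL' : NL L')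
    (h : DomL L L') (k : ℕ) : DomL (powLaw L k) (powLaw L' k) := by
  induction k with
  | zero =>
    intro C F _
    have e1 : ∀ f, powLaw L 0 f = fun _ => 1 := fun f => by
      funext i
      simp [powLaw]
    have e2 : ∀ f, powLaw L' 0 f = fun _ => 1 := fun f => by
      funext i
      simp [powLaw]
    simp only [e1, e2]
    simp
  | succ k ih =>
    rw [powLaw_succ, powLaw_succ]
    refine DomL.comp_equiv_left (DomL.comp_equiv_right ?_ _) _
    exact (DomL.prod_leftN (hL.pow k) h).trans (DomL.prod_rightN hL' ih)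

/-- Subadditivity over a finite sum. -/
theorem CH.sum_le {C : ℝ} {F : (Fin 3 → ℝ) → ℝ} (hF : CH C F) {β : Type*} (s : Finset β)
    (v : β → Fin 3 → ℝ) (hv : ∀ b ∈ s, ∀ i, 0 ≤ v b i) :
    F (fun i => ∑ b ∈ s, v b i) ≤ ∑ b ∈ s, F (v b) := by
  classical
  induction s using Finset.induction_on with
  | empty =>
    simp only [Finset.sum_empty]
    exact (hF.zero).le
  | insert a s ha ih =>
    simp only [Finset.sum_insert ha]
    refine (hF.add _ _ (hv a (Finset.mem_insert_self _ _)) (fun i => Finset.sum_nonneg fun b hb =>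
      hv b (Finset.mem_insert_of_mem hb) i)).trans ?_
    exact add_le_add le_rfl (ih fun b hb => hv b (Finset.mem_insert_of_mem hb))

/-- A cone decomposition with the rest at the vertices. -/
theorem CH.cone_le {C : ℝ} {F : (Fin 3 → ℝ) → ℝ} (hF : CH C F) {β : Type*} [Fintype β]
    (v : β → Fin 3 → ℝ) (hv : ∀ b i, 0 ≤ v b i) (m : β → ℝ) (hm : ∀ b, 0 ≤ m b)
    (u : Fin 3 → ℝ) (h : ∀ i, ∑ b, m b * v b i ≤ u i) (hs : ∀ i, 0 ≤ ∑ b, m b * v b i) :
    F u ≤ ∑ b, m b * F (v b) + ∑ t, (u t - ∑ b, m b * v b t) * F (vtx t) := by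
  have e : u = fun i => (fun j => ∑ b, m b * v b j) i + (fun j => u j - ∑ b, m b * v b j) i := by
    funext i
    simp
  have hr : ∀ i, 0 ≤ u i - ∑ b, m b * v b i := fun i => sub_nonneg.2 (h i)
  have h1 := hF.add (fun j => ∑ b, m b * v b j) (fun j => u j - ∑ b, m b * v b j) hs hr
  rw [← e] at h1
  have h2 := hF.sum_le Finset.univ (fun b i => m b * v b i)
    (fun b _ i => mul_nonneg (hm b) (hv b i))
  have h3 : ∀ b, F (fun i => m b * v b i) = m b * F (v b) := fun b =>
    hF.smul _ _ (hm b) (hv b)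
  simp only [h3] at h2
  have h4 := hF.le_vertices (fun j => u j - ∑ b, m b * v b j) hr
  exact h1.trans (add_le_add h2 h4)

/-- The cover lemma. -/
theorem CH.cover_le {C : ℝ} {F : (Fin 3 → ℝ) → ℝ} (hF : CH C F) {α β : Type*} [Fintype α]
    [Fintype β] (U : α → Fin 3 → ℝ) (v : β → Fin 3 → ℝ) (hv : ∀ b i, 0 ≤ v b i)
    (c : β → ℝ) (μ : α → β → ℝ) (hμ : ∀ a b, 0 ≤ μ a b)
    (h1 : ∀ a i, ∑ b, μ a b * v b i ≤ U a i) (h2 : ∀ b, c b ≤ ∑ a, μ a b) :
    ∑ a, F (U a) ≤ ∑ b, c b * F (v b) + ∑ t, (∑ a, U a t - ∑ b, c b * v b t) * F (vtx t) := by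
  have hcone : ∀ a, F (U a) ≤ ∑ b, μ a b * F (v b) + ∑ t, (U a t - ∑ b, μ a b * v b t) * F (vtx t) :=
    fun a => hF.cone_le v hv (μ a) (hμ a) (U a) (h1 a) (fun i => Finset.sum_nonneg fun b _ =>
      mul_nonneg (hμ a b) (hv b i))
  have hrest : ∀ b, (∑ a, μ a b - c b) * F (v b)
      ≤ ∑ t, (∑ a, μ a b - c b) * v b t * F (vtx t) := by
    intro b
    have hnn : 0 ≤ ∑ a, μ a b - c b := sub_nonneg.2 (h2 b)
    have h3 := hF.le_vertices (v b) (hv b)
    calc (∑ a, μ a b - c b) * F (v b)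
        ≤ (∑ a, μ a b - c b) * ∑ t, v b t * F (vtx t) := mul_le_mul_of_nonneg_left h3 hnn
      _ = _ := by
        rw [Finset.mul_sum]
        exact Finset.sum_congr rfl fun t _ => by ring
  calc ∑ a, F (U a)
      ≤ ∑ a, (∑ b, μ a b * F (v b) + ∑ t, (U a t - ∑ b, μ a b * v b t) * F (vtx t)) :=
        Finset.sum_le_sum fun a _ => hcone a
    _ = ∑ b, (∑ a, μ a b) * F (v b) + ∑ t, ∑ a, (U a t - ∑ b, μ a b * v b t) * F (vtx t) := by
        rw [Finset.sum_add_distrib, Finset.sum_comm]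
        congr 1
        · refine Finset.sum_congr rfl fun b _ => ?_
          rw [Finset.sum_mul]
        · rw [Finset.sum_comm]
    _ = ∑ b, c b * F (v b) + ∑ b, (∑ a, μ a b - c b) * F (v b)
          + ∑ t, ∑ a, (U a t - ∑ b, μ a b * v b t) * F (vtx t) := by
        rw [← Finset.sum_add_distrib]
        congr 1
        refine Finset.sum_congr rfl fun b _ => ?_
        ring
    _ ≤ ∑ b, c b * F (v b) + ∑ b, ∑ t, (∑ a, μ a b - c b) * v b t * F (vtx t)
          + ∑ t, ∑ a, (U a t - ∑ b, μ a b * v b t) * F (vtx t) := by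
        have := Finset.sum_le_sum fun b (_ : b ∈ Finset.univ) => hrest b
        linarith
    _ = ∑ b, c b * F (v b) + ∑ t, (∑ a, U a t - ∑ b, c b * v b t) * F (vtx t) := by
        rw [add_assoc]
        congr 1
        rw [Finset.sum_comm, ← Finset.sum_add_distrib]
        refine Finset.sum_congr rfl fun t _ => ?_
        have e1 : ∑ b, (∑ a, μ a b - c b) * v b t * F (vtx t)
            = (∑ b, (∑ a, μ a b) * v b t - ∑ b, c b * v b t) * F (vtx t) := by
          rw [← Finset.sum_sub_distrib, Finset.sum_mul]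
          refine Finset.sum_congr rfl fun b _ => ?_
          ring
        have e2 : ∑ a, (U a t - ∑ b, μ a b * v b t) * F (vtx t)
            = (∑ a, U a t - ∑ b, (∑ a, μ a b) * v b t) * F (vtx t) := by
          rw [← Finset.sum_mul, Finset.sum_sub_distrib]
          congr 2
          rw [Finset.sum_comm]
          refine Finset.sum_congr rfl fun b _ => ?_
          rw [Finset.sum_mul]
        rw [e1, e2]
        ring

/-- The rest at the vertices in the cover lemma is nonnegative. -/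
theorem cover_nonneg {α β : Type*} [Fintype α] [Fintype β] (U : α → Fin 3 → ℝ) (v : β → Fin 3 → ℝ)
    (hv : ∀ b i, 0 ≤ v b i) (c : β → ℝ) (μ : α → β → ℝ)
    (h1 : ∀ a i, ∑ b, μ a b * v b i ≤ U a i) (h2 : ∀ b, c b ≤ ∑ a, μ a b) (t : Fin 3) :
    ∑ b, c b * v b t ≤ ∑ a, U a t := by
  calc ∑ b, c b * v b t ≤ ∑ b, (∑ a, μ a b) * v b t :=
        Finset.sum_le_sum fun b _ => mul_le_mul_of_nonneg_right (h2 b) (hv b t)
    _ = ∑ a, ∑ b, μ a b * v b t := by
        rw [Finset.sum_comm]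
        refine Finset.sum_congr rfl fun b _ => ?_
        rw [Finset.sum_mul]
    _ ≤ ∑ a, U a t := Finset.sum_le_sum fun a _ => h1 a t

end Basic

/-! ### Digits of families -/

open Vale.Agent.P154.Hel.TM in
/-- Digits of a sum of monomials, without carries. -/
theorem dig_family {α : Type*} (s : Finset α) (c : α → ℕ) (pos : α → ℕ) {W n : ℕ} (hW : 0 < W)
    (hpos : ∀ a ∈ s, pos a < n) (hsum : ∑ a ∈ s, c a < W) (k : ℕ) (hk : k < n) :
    dig W (∑ a ∈ s, c a * W ^ pos a) k = ∑ a ∈ s with pos a = k, c a := by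
  classical
  have e : ∑ a ∈ s, c a * W ^ pos a = ∑ i ∈ range n, (∑ a ∈ s with pos a = i, c a) * W ^ i := by
    have h := Finset.sum_fiberwise_of_maps_to (s := s) (t := range n) (g := pos)
      (fun a ha => Finset.mem_range.mpr (hpos a ha)) (fun a => c a * W ^ pos a)
    rw [← h]
    refine Finset.sum_congr rfl fun i _ => ?_
    rw [Finset.sum_mul]
    refine Finset.sum_congr rfl fun a ha => ?_
    rw [(Finset.mem_filter.mp ha).2]
  rw [e]
  refine dig_sum hW n _ (fun j _ => lt_of_le_of_lt ?_ hsum) k hk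
  exact Finset.sum_le_sum_of_subset (Finset.filter_subset _ _)

open Vale.Agent.P154.Hel.TM in
/-- The values of the digits of a sum of monomials. -/
theorem lam_family {α : Type*} (s : Finset α) (c : α → ℕ) (pos : α → ℕ) {W n : ℕ} (hW : 0 < W)
    (hpos : ∀ a ∈ s, pos a < n) (hsum : ∑ a ∈ s, c a < W) (g : ℕ → ℝ) :
    lam W n (∑ a ∈ s, c a * W ^ pos a) g = ∑ a ∈ s, (c a : ℝ) * g (pos a) := by
  classical
  unfold lam
  have e : ∀ k ∈ range n, (dig W (∑ a ∈ s, c a * W ^ pos a) k : ℝ) * g k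
      = ∑ a ∈ s with pos a = k, (c a : ℝ) * g (pos a) := by
    intro k hk
    rw [dig_family s c pos hW hpos hsum k (Finset.mem_range.mp hk)]
    push_cast
    rw [Finset.sum_mul]
    refine Finset.sum_congr rfl fun a ha => ?_
    rw [(Finset.mem_filter.mp ha).2]
  rw [Finset.sum_congr rfl e]
  exact Finset.sum_fiberwise_of_maps_to (fun a ha => Finset.mem_range.mpr (hpos a ha)) _

end

end Vale.Agent.P154.Hel
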