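import Vale.Agent.P154.Hel.Burn.Prog
import Vale.Agent.P154.Hel.TMDigit

/-!
Specification of the loops of the burn-in program.
-/

namespace Vale.Agent.P154.Hel.Burn

open Finset Vale.Agent.P154.Hel.TM

theorem land_pred (x n : ℕ) : Nat.land x (Nat.pred (Nat.pow 2 n)) = x % 2 ^ n := by
  have : Nat.pred (Nat.pow 2 n) = 2 ^ n - 1 := rfl
  rw [this]
  exact Nat.and_two_pow_sub_one_eq_mod x n

theorem shr_eq (x n : ℕ) : Nat.shiftRight x n = x / 2 ^ n := Nat.shiftRight_eq_div_pow x n

theorem shl_eq (x n : ℕ) : Nat.shiftLeft x n = x * 2 ^ n := Nat.shiftLeft_eq x n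

/-- The number added to the accumulator for a row of unit weight. -/
def rowE (r : Row) : ℕ := r.m1 * 2 ^ r.s1 + (r.m2 * 2 ^ r.s2 + r.m3 * 2 ^ r.s3)

theorem runI_nil (D1 X acc : ℕ) : runI D1 [] X acc = acc := rfl

theorem runI_cons (D1 : ℕ) (r : Row) (rows : List Row) (X acc : ℕ) :
    runI D1 (r :: rows) X acc = runI D1 rows X
      (acc + (Nat.land (Nat.shiftRight X r.bs) D1) * rowE r) := by
  cases r with
  | mk bs s1 m1 s2 m2 s3 m3 =>
    show runI D1 rows X (Nat.add acc (Nat.mul (Nat.land (Nat.shiftRight X bs) D1)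
      (Nat.add (Nat.shiftLeft m1 s1) (Nat.add (Nat.shiftLeft m2 s2) (Nat.shiftLeft m3 s3))))) = _
    simp only [shl_eq, rowE]
    rfl

theorem runI_eq (wx : ℕ) (rows : List Row) (X acc : ℕ) :
    runI (Nat.pred (Nat.pow 2 wx)) rows X acc
      = acc + (rows.map fun r => (X / 2 ^ r.bs % 2 ^ wx) * rowE r).sum := by
  induction rows generalizing acc with
  | nil => simp [runI_nil]
  | cons r rows ih =>
    rw [runI_cons, ih, land_pred, shr_eq, List.map_cons, List.sum_cons, add_assoc]

theorem runO_nil (D1 C1 cb X acc : ℕ) : runO D1 C1 cb [] X acc = acc := rfl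

theorem runO_cons (D1 C1 cb : ℕ) (rows : List Row) (tb : List (List Row)) (X acc : ℕ) :
    runO D1 C1 cb (rows :: tb) X acc
      = runO D1 C1 cb tb (Nat.shiftRight X cb) (runI D1 rows (Nat.land X C1) acc) := by
  show fc _ _ = _
  rw [fc_eq]
  rfl

/-- The value of the outer loop. -/
def sumO (wx cb : ℕ) : List (List Row) → ℕ → ℕ
  | [], _ => 0
  | rows :: tb, X =>
    (rows.map fun r => ((X % 2 ^ cb) / 2 ^ r.bs % 2 ^ wx) * rowE r).sum + sumO wx cb tb (X / 2 ^ cb)

theorem runO_eq (wx cb : ℕ) (tb : List (List Row)) (X acc : ℕ) :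
    runO (Nat.pred (Nat.pow 2 wx)) (Nat.pred (Nat.pow 2 cb)) cb tb X acc = acc + sumO wx cb tb X := by
  induction tb generalizing X acc with
  | nil => simp [runO_nil, sumO]
  | cons rows tb ih =>
    rw [runO_cons, ih, runI_eq, land_pred, shr_eq, sumO, add_assoc]

/-- The row at a position of a chunk. -/
def rowAt (wx : ℕ) : List Row → ℕ → Option Row
  | [], _ => none
  | r :: rs, b => if r.bs = b * wx then some r else rowAt wx rs b

/-- The value of `rowE` at a position of a chunk. -/
def eAt (wx : ℕ) (rows : List Row) (b : ℕ) : ℕ := (rowAt wx rows b).elim 0 rowE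

/-- Properties of the rows of a chunk. -/
structure RowsOK (wx N : ℕ) (rows : List Row) : Prop where
  mem : ∀ r ∈ rows, ∃ b, b < N ∧ r.bs = b * wx
  sorted : rows.Pairwise fun r r' => r.bs < r'.bs

theorem rowAt_none (wx : ℕ) (rows : List Row) (b : ℕ) (h : ∀ r ∈ rows, r.bs ≠ b * wx) :
    rowAt wx rows b = none := by
  induction rows with
  | nil => rfl
  | cons r rows ih =>
    rw [rowAt, if_neg (h r (List.mem_cons_self))]
    exact ih fun r' hr' => h r' (List.mem_cons_of_mem _ hr')

theorem sum_rows {wx N : ℕ} (hwx : 0 < wx) (rows : List Row) (hR : RowsOK wx N rows) (d : ℕ → ℕ) :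
    (rows.map fun r => d (r.bs / wx) * rowE r).sum = ∑ b ∈ range N, d b * eAt wx rows b := by
  induction rows with
  | nil => simp [eAt, rowAt]
  | cons r rows ih =>
    obtain ⟨b0, hb0, hr⟩ := hR.mem r List.mem_cons_self
    have hsorted := List.pairwise_cons.mp hR.sorted
    have hR' : RowsOK wx N rows :=
      ⟨fun r' hr' => hR.mem r' (List.mem_cons_of_mem _ hr'), hsorted.2⟩
    have e1 : r.bs / wx = b0 := by
      rw [hr]
      exact Nat.mul_div_cancel _ hwx
    have hz : eAt wx rows b0 = 0 := by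
      unfold eAt
      rw [rowAt_none wx rows b0 fun r' hr' => by
        have := hsorted.1 r' hr'
        omega]
      rfl
    have e2 : ∀ b ∈ range N, d b * eAt wx (r :: rows) b
        = d b * eAt wx rows b + (if b = b0 then d b0 * rowE r else 0) := by
      intro b _
      by_cases hb : b = b0
      · subst hb
        have : eAt wx (r :: rows) b = rowE r := by
          unfold eAt
          rw [rowAt, if_pos hr]
          rfl
        rw [this, hz, if_pos rfl]
        ring
      · have hne : r.bs ≠ b * wx := by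
          rw [hr]
          intro h
          exact hb (Nat.eq_of_mul_eq_mul_right hwx h).symm
        have : eAt wx (r :: rows) b = eAt wx rows b := by
          unfold eAt
          rw [rowAt, if_neg hne]
        rw [this, if_neg hb, add_zero]
    rw [Finset.sum_congr rfl e2, Finset.sum_add_distrib, ← ih hR', List.map_cons, List.sum_cons,
      e1, Finset.sum_ite_eq' (range N) b0, if_pos (Finset.mem_range.mpr hb0), add_comm]

theorem sum_range_mul (f : ℕ → ℕ) (A N : ℕ) :
    ∑ k ∈ range (A * N), f k = ∑ a ∈ range A, ∑ b ∈ range N, f (a * N + b) := by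
  induction A with
  | zero => simp
  | succ A ih =>
    rw [Nat.succ_mul, Finset.sum_range_add, ih, Finset.sum_range_succ]

/-- Values at the positions of a table. -/
def eTab (wx N : ℕ) (tb : List (List Row)) (k : ℕ) : ℕ := eAt wx (tb.getD (k / N) []) (k % N)

/-- Properties of a table. -/
structure TabOK (wx N : ℕ) (tb : List (List Row)) : Prop where
  len : tb.length = N
  rows : ∀ rows ∈ tb, RowsOK wx N rows

theorem sumO_eq_aux {wx N : ℕ} (hwx : 0 < wx) (hN : 0 < N) (tb : List (List Row))
    (h : ∀ rows ∈ tb, RowsOK wx N rows) (X : ℕ) :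
    sumO wx (N * wx) tb X = ∑ a ∈ range tb.length, ∑ b ∈ range N,
      dig (2 ^ wx) X (a * N + b) * eAt wx (tb.getD a []) b := by
  induction tb generalizing X with
  | nil => simp [sumO]
  | cons rows tb ih =>
    have hW : 0 < 2 ^ wx := by positivity
    have h1 : RowsOK wx N rows := h rows List.mem_cons_self
    have hpw : (2 : ℕ) ^ (N * wx) = (2 ^ wx) ^ N := by
      rw [← pow_mul, mul_comm]
    rw [sumO, ih (fun r hr => h r (List.mem_cons_of_mem _ hr)), List.length_cons,
      Finset.sum_range_succ']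
    have e1 : (rows.map fun r => ((X % 2 ^ (N * wx)) / 2 ^ r.bs % 2 ^ wx) * rowE r).sum
        = (rows.map fun r => dig (2 ^ wx) (X % (2 ^ wx) ^ N) (r.bs / wx) * rowE r).sum := by
      congr 1
      refine List.map_congr_left fun r hr => ?_
      obtain ⟨b, _, hb⟩ := h1.mem r hr
      congr 1
      rw [hb, Nat.mul_div_cancel _ hwx]
      unfold dig
      rw [hpw, show (2 : ℕ) ^ (b * wx) = (2 ^ wx) ^ b from by rw [← pow_mul, mul_comm]]
    rw [e1, sum_rows hwx rows h1 (fun b => dig (2 ^ wx) (X % (2 ^ wx) ^ N) b), add_comm]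
    congr 1
    · refine Finset.sum_congr rfl fun a _ => Finset.sum_congr rfl fun b _ => ?_
      have : dig (2 ^ wx) (X / 2 ^ (N * wx)) (a * N + b) = dig (2 ^ wx) X ((a + 1) * N + b) := by
        rw [hpw, dig_high]
        congr 1
        ring
      rw [this]
      rfl
    · refine Finset.sum_congr rfl fun b hb => ?_
      rw [dig_low hW X N b (Finset.mem_range.mp hb), zero_mul, zero_add]
      rfl

/-- The value of the outer loop as a sum over the positions. -/
theorem sumO_eq {wx N : ℕ} (hwx : 0 < wx) (hN : 0 < N) {tb : List (List Row)} (h : TabOK wx N tb)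
    (X : ℕ) :
    sumO wx (N * wx) tb X = ∑ k ∈ range (N * N), dig (2 ^ wx) X k * eTab wx N tb k := by
  rw [sumO_eq_aux hwx hN tb h.rows, h.len, sum_range_mul]
  refine Finset.sum_congr rfl fun a ha => Finset.sum_congr rfl fun b hb => ?_
  have hb' := Finset.mem_range.mp hb
  have e1 : (a * N + b) / N = a := by
    rw [mul_comm, Nat.mul_add_div hN, Nat.div_eq_of_lt hb', add_zero]
  have e2 : (a * N + b) % N = b := by
    rw [mul_comm, Nat.mul_add_mod, Nat.mod_eq_of_lt hb']
  unfold eTab
  rw [e1, e2]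

theorem foldY_eq (w : ℕ) (f : ℕ → ℕ → ℕ) (labs : List ℕ) (Y acc : ℕ) :
    foldY w (Nat.pred (Nat.pow 2 w)) f labs Y acc
      = acc + ∑ t ∈ range labs.length, f (labs.getD t 0) (dig (2 ^ w) Y t) := by
  induction labs generalizing Y acc with
  | nil => simp; rfl
  | cons l labs ih =>
    show fc _ _ = _
    rw [fc_eq]
    show foldY w (Nat.pred (Nat.pow 2 w)) f labs (Nat.shiftRight Y w)
      (Nat.add acc (f l (Nat.land Y (Nat.pred (Nat.pow 2 w))))) = _
    rw [ih, List.length_cons, Finset.sum_range_succ', land_pred, shr_eq]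
    have e1 : Nat.add acc (f l (Y % 2 ^ w)) = acc + f l (Y % 2 ^ w) := rfl
    rw [e1]
    have e2 : ∑ t ∈ range labs.length, f (labs.getD t 0) (dig (2 ^ w) (Y / 2 ^ w) t)
        = ∑ t ∈ range labs.length, f ((l :: labs).getD (t + 1) 0) (dig (2 ^ w) Y (t + 1)) := by
      refine Finset.sum_congr rfl fun t _ => ?_
      rw [dig_succ]
      rfl
    rw [e2]
    have e3 : (l :: labs).getD 0 0 = l := rfl
    rw [e3, dig_zero]
    ring

theorem covL_spec (w wa S : ℕ) (n Y A : ℕ)
    (h : covL w wa (Nat.pred (Nat.pow 2 w)) (Nat.pred (Nat.pow 2 wa)) S n Y A = true) (t : ℕ)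
    (ht : t < n) : dig (2 ^ w) Y t * 2 ^ S ≤ dig (2 ^ wa) A t := by
  induction n generalizing Y A t with
  | zero => exact absurd ht (Nat.not_lt_zero t)
  | succ n ih =>
    have h1 : covL w wa (Nat.pred (Nat.pow 2 w)) (Nat.pred (Nat.pow 2 wa)) S (n + 1) Y A
        = Bool.rec (motive := fun _ => Bool) false
          (covL w wa (Nat.pred (Nat.pow 2 w)) (Nat.pred (Nat.pow 2 wa)) S n (Nat.shiftRight Y w)
            (Nat.shiftRight A wa))
          (Nat.ble (Nat.shiftLeft (Nat.land Y (Nat.pred (Nat.pow 2 w))) S)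
            (Nat.land A (Nat.pred (Nat.pow 2 wa)))) := rfl
    rw [h1] at h
    cases hb : Nat.ble (Nat.shiftLeft (Nat.land Y (Nat.pred (Nat.pow 2 w))) S)
        (Nat.land A (Nat.pred (Nat.pow 2 wa))) with
    | false =>
      rw [hb] at h
      exact absurd h (by simp)
    | true =>
      rw [hb] at h
      cases t with
      | zero =>
        have := Nat.le_of_ble_eq_true hb
        rw [land_pred, land_pred, shl_eq] at this
        rw [dig_zero, dig_zero]
        exact this
      | succ t =>
        rw [dig_succ, dig_succ]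
        have h2 := ih _ _ h t (by omega)
        rwa [shr_eq, shr_eq] at h2

end Vale.Agent.P154.Hel.Burn
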