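import Vale.Agent.P154.Hel.Burn.Law
import Vale.Agent.P154.Hel.Burn.Spec

/-!
The check of the tables of the burn-in, and its meaning: each row is a cone decomposition.
-/

namespace Vale.Agent.P154.Hel

open Finset

noncomputable section

namespace Burn

/-- The entry of a list of labels, through the recursors. -/
def labAt (labs : List ℕ) : ℕ → ℕ :=
  List.rec (motive := fun _ => ℕ → ℕ) (fun _ => nat_lit 0)
    (fun x _ ih n => Nat.rec (motive := fun _ => ℕ) x (fun m _ => ih m) n) labs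

theorem labAt_eq : ∀ (labs : List ℕ) (t : ℕ), labAt labs t = labs.getD t 0
  | [], t => by simp [labAt]
  | x :: xs, 0 => rfl
  | x :: xs, t + 1 => by
    have h := labAt_eq xs t
    show labAt xs t = _
    rw [h]
    rfl

/-- Choice on a Boolean. -/
def bsel (c : Bool) (a b : ℕ) : ℕ := Bool.rec (motive := fun _ => ℕ) b a c

theorem bsel_eq (c : Bool) (a b : ℕ) : bsel c a b = if c = true then a else b := by
  cases c <;> rfl

/-- The scaled coordinate of a target. -/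
def cT0 (labs : List ℕ) (Mt Sc : ℕ) (t : ℕ) : ℕ :=
  bsel (Nat.blt t Mt) Sc (bsel (Nat.beq t Mt) 0 Sc)

/-- The scaled coordinate of a target. -/
def cT1 (C : Cfg) (labs : List ℕ) (Mt Sc : ℕ) (t : ℕ) : ℕ :=
  bsel (Nat.blt t Mt) (pw C.p C.q (8 * C.R) (labAt labs t / C.N + 3 * C.R))
    (bsel (Nat.beq t (Mt + 1)) 0 Sc)

/-- The scaled coordinate of a target. -/
def cT2 (C : Cfg) (labs : List ℕ) (Mt Sc : ℕ) (t : ℕ) : ℕ :=
  bsel (Nat.blt t Mt) (pw C.p C.q (8 * C.R) (labAt labs t % C.N + 3 * C.R))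
    (bsel (Nat.beq t (Mt + 2)) 0 Sc)

/-- The check of one inequality of a row. -/
def ineqR (wm m1 m2 m3 a1 a2 a3 xa xb : ℕ) : Bool :=
  Nat.ble (2 * (m1 * a1 + (m2 * a2 + m3 * a3))) (2 ^ wm * (xa + xb))

/-- The check of a row at chunk `a`; `mc` is the code of the mask (`3` for no mask). -/
def chkRow (C : Cfg) (labs : List ℕ) (Mt Sc mc a : ℕ) (r : Row) : Bool :=
  Row.rec (motive := fun _ => Bool) (fun bs s1 m1 s2 m2 s3 m3 =>
    fc (bs / C.wx) fun b =>
    fc (s1 / C.wa) fun t1 => fc (s2 / C.wa) fun t2 => fc (s3 / C.wa) fun t3 =>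
    (fun (x0 x1 x2 : ℕ) =>
    and (Nat.beq (b * C.wx) bs) (and (Nat.blt b C.N)
    (and (Nat.beq (t1 * C.wa) s1) (and (Nat.beq (t2 * C.wa) s2) (and (Nat.beq (t3 * C.wa) s3)
    (and (Nat.blt t1 (Mt + 3)) (and (Nat.blt t2 (Mt + 3)) (and (Nat.blt t3 (Mt + 3))
    (and (ineqR C.wm m1 m2 m3 (cT0 labs Mt Sc t1) (cT0 labs Mt Sc t2) (cT0 labs Mt Sc t3) x1 x2)
    (and (ineqR C.wm m1 m2 m3 (cT1 C labs Mt Sc t1) (cT1 C labs Mt Sc t2) (cT1 C labs Mt Sc t3) x2 x0)
      (ineqR C.wm m1 m2 m3 (cT2 C labs Mt Sc t1) (cT2 C labs Mt Sc t2) (cT2 C labs Mt Sc t3) x0 x1)))))))))))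
    (bsel (Nat.beq mc 0) 0 Sc)
    (bsel (Nat.beq mc 1) 0 (pw C.p C.q (8 * C.R) a))
    (bsel (Nat.beq mc 2) 0 (pw C.p C.q (8 * C.R) b))) r

/-- The check of the rows of a chunk. -/
def chkRows (C : Cfg) (labs : List ℕ) (Mt Sc mc a : ℕ) (rows : List Row) : ℕ → Bool :=
  List.rec (motive := fun _ => ℕ → Bool) (fun _ => true)
    (fun r _ ih lo =>
      Bool.rec (motive := fun _ => Bool) false (ih (r.bs + 1))
        (and (Nat.ble lo r.bs) (chkRow C labs Mt Sc mc a r))) rows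

/-- The check of a table. -/
def chkTb (C : Cfg) (labs : List ℕ) (Mt Sc mc : ℕ) (tb : List (List Row)) : ℕ → Bool :=
  List.rec (motive := fun _ => ℕ → Bool) (fun _ => true)
    (fun rows _ ih a =>
      Bool.rec (motive := fun _ => Bool) false (ih (a + 1))
        (chkRows C labs Mt Sc mc a rows 0)) tb

/-- The check of the labels. -/
def chkLabs (C : Cfg) (labs : List ℕ) : Bool :=
  List.rec (motive := fun _ => Bool) true
    (fun l _ ih => and (and (Nat.ble (l / C.N) (2 * C.R)) (Nat.ble (l % C.N) (2 * C.R))) ih) labs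

/-- The check of all tables. -/
def chkTabs (C : Cfg) (T : Tabs) : Bool :=
  (fun (Mt Sc : ℕ) =>
  and (Nat.beq C.N (8 * C.R + 1))
  (and (Nat.blt 0 C.p) (and (Nat.blt 0 C.q) (and (Nat.blt 0 C.wx) (and (Nat.blt 0 C.w)
  (and (Nat.blt (4 * C.w + C.wm) C.wa)
  (and (chkLabs C T.labs)
  (and (Nat.beq T.tb0.length C.N) (and (Nat.beq T.tb1.length C.N)
  (and (Nat.beq T.tb2.length C.N) (and (Nat.beq T.tb3.length C.N)
  (and (chkTb C T.labs Mt Sc 3 T.tb0 0) (and (chkTb C T.labs Mt Sc 0 T.tb1 0)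
  (and (chkTb C T.labs Mt Sc 1 T.tb2 0) (chkTb C T.labs Mt Sc 2 T.tb3 0)))))))))))))))
  T.labs.length ((C.p * C.q) ^ (4 * C.R))

/-! ### Meaning -/

/-- The target rays: the lattice and the rays `S_i`. -/
def Sv (i : Fin 3) : Fin 3 → ℝ := fun j => if j = i then 0 else 1

/-- The ratio of a configuration. -/
def ratio (C : Cfg) : ℝ := (C.p : ℝ) / C.q

/-- The ray of a target, by its number. -/
def vT (C : Cfg) (T : Tabs) (t : ℕ) : Fin 3 → ℝ :=
  if t < T.labs.length then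
    ![1, eT (ratio C) C.R (T.labs.getD t 0 / C.N), eT (ratio C) C.R (T.labs.getD t 0 % C.N)]
  else Sv (Fin.ofNat 3 (t - T.labs.length))

/-- Masking with an optional coordinate. -/
def mm (m : Option (Fin 3)) (v : Fin 3 → ℝ) : Fin 3 → ℝ :=
  match m with
  | none => v
  | some i => maskV i v

/-- The channel at `-1/2`. -/
theorem T_half (x : Fin 3 → ℝ) (j : Fin 3) : T (-(1 / 2)) x j = (x (j + 1) + x (j + 2)) / 2 := by
  unfold T mass
  fin_cases j <;> simp <;> ring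

/-- The meaning of a row. -/
structure RowSem (C : Cfg) (T : Tabs) (m : Option (Fin 3)) (a : ℕ) (r : Row) : Prop where
  hb : r.bs = (r.bs / C.wx) * C.wx
  hbN : r.bs / C.wx < C.N
  h1 : r.s1 = (r.s1 / C.wa) * C.wa
  h2 : r.s2 = (r.s2 / C.wa) * C.wa
  h3 : r.s3 = (r.s3 / C.wa) * C.wa
  t1 : r.s1 / C.wa < T.labs.length + 3
  t2 : r.s2 / C.wa < T.labs.length + 3
  t3 : r.s3 / C.wa < T.labs.length + 3
  ineq : ∀ j : Fin 3, (r.m1 : ℝ) / 2 ^ C.wm * vT C T (r.s1 / C.wa) j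
    + ((r.m2 : ℝ) / 2 ^ C.wm * vT C T (r.s2 / C.wa) j
      + (r.m3 : ℝ) / 2 ^ C.wm * vT C T (r.s3 / C.wa) j)
    ≤ Hel.T (-(1 / 2)) (mm m (rayX (ratio C) C.R C.N (a * C.N + r.bs / C.wx))) j

/-- The scaled powers. -/
theorem pw_spec {p q R u : ℕ} (hp : 0 < p) (hq : 0 < q) (hu : u ≤ 8 * R) :
    (pw p q (8 * R) u : ℝ) = (((p * q) ^ (4 * R) : ℕ) : ℝ) * ((p : ℝ) / q) ^ ((u : ℤ) - 4 * (R : ℤ)) := by
  have hp' : (p : ℝ) ≠ 0 := by exact_mod_cast hp.ne'
  have hq' : (q : ℝ) ≠ 0 := by exact_mod_cast hq.ne'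
  have hr : (p : ℝ) / q ≠ 0 := div_ne_zero hp' hq'
  have e1 : ((u : ℤ) - 4 * (R : ℤ)) = (u : ℤ) - ((4 * R : ℕ) : ℤ) := by
    push_cast
    ring
  rw [e1, zpow_sub₀ hr, zpow_natCast, zpow_natCast, div_pow, div_pow]
  have e2 : (pw p q (8 * R) u : ℝ) = (p : ℝ) ^ u * (q : ℝ) ^ (8 * R - u) := by
    show ((p ^ u * q ^ (8 * R - u) : ℕ) : ℝ) = _
    push_cast
    ring
  have e3 : (q : ℝ) ^ (8 * R) = (q : ℝ) ^ (8 * R - u) * (q : ℝ) ^ u := by
    rw [← pow_add]
    congr 1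
    omega
  have e4 : (q : ℝ) ^ (4 * R) * (q : ℝ) ^ (4 * R) = (q : ℝ) ^ (8 * R) := by
    rw [← pow_add]
    congr 1
    omega
  rw [e2]
  push_cast
  rw [mul_pow]
  have h5 : (p : ℝ) ^ (4 * R) ≠ 0 := pow_ne_zero _ hp'
  have h6 : (q : ℝ) ^ u ≠ 0 := pow_ne_zero _ hq'
  have h7 : (q : ℝ) ^ (4 * R) ≠ 0 := pow_ne_zero _ hq'
  field_simp
  rw [← e3, ← e4]
  ring


/-- An inequality of a row, rescaled. -/
theorem ineq_scale {Sc W m1 m2 m3 v1 v2 v3 xa xb : ℝ} (hS : 0 < Sc) (hW : 0 < W)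
    (h : 2 * (m1 * (Sc * v1) + (m2 * (Sc * v2) + m3 * (Sc * v3))) ≤ W * (Sc * xa + Sc * xb)) :
    m1 / W * v1 + (m2 / W * v2 + m3 / W * v3) ≤ (xa + xb) / 2 := by
  have h1 : m1 / W * v1 + (m2 / W * v2 + m3 / W * v3)
      = (2 * (m1 * (Sc * v1) + (m2 * (Sc * v2) + m3 * (Sc * v3)))) / (2 * (W * Sc)) := by
    field_simp
  have h2 : (xa + xb) / 2 = (W * (Sc * xa + Sc * xb)) / (2 * (W * Sc)) := by
    field_simp
  rw [h1, h2]
  exact div_le_div_of_nonneg_right h (by positivity)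

section Sem

variable {C : Cfg} {T : Tabs}

/-- The semantic properties of the configuration used by the rows. -/
structure CfgOK (C : Cfg) (T : Tabs) : Prop where
  hN : C.N = 8 * C.R + 1
  hp : 0 < C.p
  hq : 0 < C.q
  hlabs : ∀ l ∈ T.labs, l / C.N ≤ 2 * C.R ∧ l % C.N ≤ 2 * C.R

theorem chkLabs_spec {C : Cfg} : ∀ {labs : List ℕ}, chkLabs C labs = true →
    ∀ l ∈ labs, l / C.N ≤ 2 * C.R ∧ l % C.N ≤ 2 * C.R
  | [], _, l, hl => by simp at hl
  | x :: xs, h, l, hl => by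
    have h' : (and (and (Nat.ble (x / C.N) (2 * C.R)) (Nat.ble (x % C.N) (2 * C.R)))
        (chkLabs C xs)) = true := h
    simp only [Bool.and_eq_true, Nat.ble_eq] at h'
    rcases List.mem_cons.mp hl with rfl | hl
    · exact h'.1
    · exact chkLabs_spec h'.2 l hl

/-- The scale. -/
def scOf (C : Cfg) : ℕ := (C.p * C.q) ^ (4 * C.R)

theorem CfgOK.sc_pos (h : CfgOK C T) : (0 : ℝ) < (scOf C : ℝ) := by
  have := h.hp
  have := h.hq
  unfold scOf
  positivity

theorem CfgOK.pw_eX (h : CfgOK C T) {u : ℕ} (hu : u ≤ 8 * C.R) :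
    (pw C.p C.q (8 * C.R) u : ℝ) = (scOf C : ℝ) * eX (ratio C) C.R u := by
  rw [pw_spec h.hp h.hq hu]
  rfl

theorem CfgOK.pw_eT (h : CfgOK C T) {a : ℕ} (ha : a ≤ 2 * C.R) :
    (pw C.p C.q (8 * C.R) (a + 3 * C.R) : ℝ) = (scOf C : ℝ) * eT (ratio C) C.R a := by
  rw [h.pw_eX (by omega)]
  congr 1
  unfold eX eT
  congr 1
  push_cast
  ring

theorem CfgOK.lab_mem {t : ℕ} (ht : t < T.labs.length) : T.labs.getD t 0 ∈ T.labs := by
  rw [List.getD_eq_getElem _ _ ht]
  exact List.getElem_mem ht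

theorem cT0_spec (h : CfgOK C T) {t : ℕ} (ht : t < T.labs.length + 3) :
    (cT0 T.labs T.labs.length (scOf C) t : ℝ) = (scOf C : ℝ) * vT C T t 0 := by
  unfold cT0 vT
  simp only [bsel_eq, Nat.blt_eq, Nat.beq_eq]
  by_cases h1 : t < T.labs.length
  · simp [h1]
  · rw [if_neg h1, if_neg h1]
    have e : t = T.labs.length ∨ t = T.labs.length + 1 ∨ t = T.labs.length + 2 := by omega
    rcases e with e | e | e <;> subst e <;> simp [Sv, Fin.ofNat]

theorem cT1_spec (h : CfgOK C T) {t : ℕ} (ht : t < T.labs.length + 3) :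
    (cT1 C T.labs T.labs.length (scOf C) t : ℝ) = (scOf C : ℝ) * vT C T t 1 := by
  unfold cT1 vT
  simp only [bsel_eq, Nat.blt_eq, Nat.beq_eq, labAt_eq]
  by_cases h1 : t < T.labs.length
  · rw [if_pos h1, if_pos h1]
    rw [h.pw_eT (h.hlabs _ (CfgOK.lab_mem h1)).1]
    simp
  · rw [if_neg h1, if_neg h1]
    have e : t = T.labs.length ∨ t = T.labs.length + 1 ∨ t = T.labs.length + 2 := by omega
    rcases e with e | e | e <;> subst e <;> simp [Sv, Fin.ofNat]

theorem cT2_spec (h : CfgOK C T) {t : ℕ} (ht : t < T.labs.length + 3) :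
    (cT2 C T.labs T.labs.length (scOf C) t : ℝ) = (scOf C : ℝ) * vT C T t 2 := by
  unfold cT2 vT
  simp only [bsel_eq, Nat.blt_eq, Nat.beq_eq, labAt_eq]
  by_cases h1 : t < T.labs.length
  · rw [if_pos h1, if_pos h1]
    rw [h.pw_eT (h.hlabs _ (CfgOK.lab_mem h1)).2]
    simp
  · rw [if_neg h1, if_neg h1]
    have e : t = T.labs.length ∨ t = T.labs.length + 1 ∨ t = T.labs.length + 2 := by omega
    rcases e with e | e | e <;> subst e <;> simp [Sv, Fin.ofNat]

/-- The code of a mask. -/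
def mcOf : Option (Fin 3) → ℕ
  | none => 3
  | some i => i

theorem rayX_mk {r : ℝ} {R N a b : ℕ} (hN : 0 < N) (hb : b < N) :
    rayX r R N (a * N + b) = ![1, eX r R a, eX r R b] := by
  have e1 : (a * N + b) / N = a := by
    rw [mul_comm, Nat.mul_add_div hN, Nat.div_eq_of_lt hb, add_zero]
  have e2 : (a * N + b) % N = b := by
    rw [mul_comm, Nat.mul_add_mod, Nat.mod_eq_of_lt hb]
  unfold rayX
  rw [e1, e2]

/-- The scaled coordinates of a masked ray. -/
theorem x_scaled (h : CfgOK C T) {a b : ℕ} (ha : a < C.N) (hb : b < C.N) (m : Option (Fin 3)) :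
    (((bsel (Nat.beq (mcOf m) 0) 0 (scOf C) : ℕ) : ℝ)
        = (scOf C : ℝ) * mm m (rayX (ratio C) C.R C.N (a * C.N + b)) 0)
    ∧ (((bsel (Nat.beq (mcOf m) 1) 0 (pw C.p C.q (8 * C.R) a) : ℕ) : ℝ)
        = (scOf C : ℝ) * mm m (rayX (ratio C) C.R C.N (a * C.N + b)) 1)
    ∧ (((bsel (Nat.beq (mcOf m) 2) 0 (pw C.p C.q (8 * C.R) b) : ℕ) : ℝ)
        = (scOf C : ℝ) * mm m (rayX (ratio C) C.R C.N (a * C.N + b)) 2) := by
  have hN := h.hN
  have e1 := h.pw_eX (u := a) (by omega)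
  have e2 := h.pw_eX (u := b) (by omega)
  rw [rayX_mk (by omega) hb]
  rcases m with _ | i
  · simp [bsel_eq, mcOf, mm, e1, e2]
  · fin_cases i <;> simp [bsel_eq, mcOf, mm, maskV, e1, e2]


theorem chkRow_sem (h : CfgOK C T) (hwm : True) {m : Option (Fin 3)} {a : ℕ} (ha : a < C.N) {r : Row}
    (hc : chkRow C T.labs T.labs.length (scOf C) (mcOf m) a r = true) : RowSem C T m a r := by
  obtain ⟨bs, s1, m1, s2, m2, s3, m3⟩ := r
  simp only [chkRow, fc_eq, Bool.and_eq_true, Nat.beq_eq, Nat.blt_eq] at hc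
  obtain ⟨hb, hbN, h1, h2, h3, t1, t2, t3, i0, i1, i2⟩ := hc
  have hbN' : bs / C.wx < C.N := hbN
  obtain ⟨x0, x1, x2⟩ := x_scaled h ha hbN' m
  have hS := h.sc_pos
  have hW : (0 : ℝ) < 2 ^ C.wm := by positivity
  have hT := fun (x : Fin 3 → ℝ) (j : Fin 3) => T_half x j
  refine ⟨hb.symm, hbN, h1.symm, h2.symm, h3.symm, t1, t2, t3, ?_⟩
  simp only [ineqR, Nat.ble_eq] at i0 i1 i2
  intro j
  rw [hT]
  have cast : ∀ {a b : ℕ}, a ≤ b → (a : ℝ) ≤ (b : ℝ) := fun h => by exact_mod_cast h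
  fin_cases j
  · have i := cast i0
    push_cast at i
    rw [cT0_spec h t1, cT0_spec h t2, cT0_spec h t3, x1, x2] at i
    exact ineq_scale hS hW i
  · have i := cast i1
    push_cast at i
    rw [cT1_spec h t1, cT1_spec h t2, cT1_spec h t3, x0, x2] at i
    have := ineq_scale hS hW i
    simpa [add_comm] using this
  · have i := cast i2
    push_cast at i
    rw [cT2_spec h t1, cT2_spec h t2, cT2_spec h t3, x0, x1] at i
    have := ineq_scale hS hW i
    simpa using this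

theorem chkRows_spec {C : Cfg} {T : Tabs} {mc a : ℕ} {Sc : ℕ} : ∀ {rows : List Row} {lo : ℕ},
    chkRows C T.labs T.labs.length Sc mc a rows lo = true →
    (∀ r ∈ rows, lo ≤ r.bs ∧ chkRow C T.labs T.labs.length Sc mc a r = true)
      ∧ rows.Pairwise fun r r' => r.bs < r'.bs
  | [], _, _ => by simp
  | x :: xs, lo, h => by
    have h' : (Bool.rec (motive := fun _ => Bool) false
        (chkRows C T.labs T.labs.length Sc mc a xs (x.bs + 1))
        (and (Nat.ble lo x.bs) (chkRow C T.labs T.labs.length Sc mc a x))) = true := h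
    cases hb : and (Nat.ble lo x.bs) (chkRow C T.labs T.labs.length Sc mc a x) with
    | false =>
      rw [hb] at h'
      exact absurd h' (by simp)
    | true =>
      rw [hb] at h'
      have ih := chkRows_spec (rows := xs) h'
      simp only [Bool.and_eq_true, Nat.ble_eq] at hb
      refine ⟨?_, List.pairwise_cons.mpr ⟨fun r hr => ?_, ih.2⟩⟩
      · intro r hr
        rcases List.mem_cons.mp hr with rfl | hr
        · exact hb
        · exact ⟨by have := (ih.1 r hr).1; omega, (ih.1 r hr).2⟩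
      · have := (ih.1 r hr).1
        omega

theorem chkTb_spec {C : Cfg} {T : Tabs} {mc : ℕ} {Sc : ℕ} : ∀ {tb : List (List Row)} {a : ℕ},
    chkTb C T.labs T.labs.length Sc mc tb a = true →
    ∀ i, (hi : i < tb.length) → chkRows C T.labs T.labs.length Sc mc (a + i) tb[i] 0 = true
  | [], _, _, i, hi => by simp at hi
  | x :: xs, a, h, i, hi => by
    have h' : (Bool.rec (motive := fun _ => Bool) false
        (chkTb C T.labs T.labs.length Sc mc xs (a + 1))
        (chkRows C T.labs T.labs.length Sc mc a x 0)) = true := h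
    cases hb : chkRows C T.labs T.labs.length Sc mc a x 0 with
    | false =>
      rw [hb] at h'
      exact absurd h' (by simp)
    | true =>
      rw [hb] at h'
      cases i with
      | zero => exact hb
      | succ i =>
        have := chkTb_spec h' i (by simpa using hi)
        have e : a + 1 + i = a + (i + 1) := by ring
        rw [e] at this
        exact this

/-- The table of a mask. -/
def tbOf (T : Tabs) : Option (Fin 3) → List (List Row)
  | none => T.tb0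
  | some 0 => T.tb1
  | some 1 => T.tb2
  | some 2 => T.tb3

/-- The semantic content of `chkTabs`. -/
structure TabsSem (C : Cfg) (T : Tabs) : Prop where
  ok : CfgOK C T
  hwx : 0 < C.wx
  hw : 0 < C.w
  hwa : 4 * C.w + C.wm < C.wa
  tabOK : ∀ m, TabOK C.wx C.N (tbOf T m)
  rows : ∀ m a, a < C.N → ∀ r ∈ (tbOf T m).getD a [], RowSem C T m a r

theorem TabsSem.of_tb (h : CfgOK C T) (hwx : 0 < C.wx) {m : Option (Fin 3)}
    (hl : (tbOf T m).length = C.N)
    (hc : chkTb C T.labs T.labs.length (scOf C) (mcOf m) (tbOf T m) 0 = true) :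
    TabOK C.wx C.N (tbOf T m) ∧ ∀ a, a < C.N → ∀ r ∈ (tbOf T m).getD a [], RowSem C T m a r := by
  have key := chkTb_spec hc
  have hR : ∀ a, a < C.N → ∀ r ∈ (tbOf T m).getD a [], RowSem C T m a r := by
    intro a ha r hr
    have ha' : a < (tbOf T m).length := by omega
    rw [List.getD_eq_getElem _ _ ha'] at hr
    have h1 := key a ha'
    rw [zero_add] at h1
    exact chkRow_sem h trivial ha ((chkRows_spec h1).1 r hr).2
  refine ⟨⟨hl, fun rows hrows => ?_⟩, hR⟩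
  obtain ⟨a, ha, rfl⟩ := List.getElem_of_mem hrows
  have h1 := key a ha
  rw [zero_add] at h1
  have h2 := chkRows_spec h1
  refine ⟨fun r hr => ?_, h2.2⟩
  have h3 : a < C.N := by omega
  have h4 := hR a h3 r (by rwa [List.getD_eq_getElem _ _ ha])
  exact ⟨r.bs / C.wx, h4.hbN, h4.hb⟩

theorem chkTabs_sound (h : chkTabs C T = true) : TabsSem C T := by
  unfold chkTabs at h
  simp only [Bool.and_eq_true, Nat.beq_eq, Nat.blt_eq] at h
  obtain ⟨hN, hp, hq, hwx, hw, hwa, hl, l0, l1, l2, l3, t0, t1, t2, t3⟩ := h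
  have ok : CfgOK C T := ⟨hN, hp, hq, chkLabs_spec hl⟩
  have hm : ∀ m, (tbOf T m).length = C.N ∧
      chkTb C T.labs T.labs.length (scOf C) (mcOf m) (tbOf T m) 0 = true := by
    intro m
    rcases m with _ | i
    · exact ⟨l0, t0⟩
    · fin_cases i
      · exact ⟨l1, t1⟩
      · exact ⟨l2, t2⟩
      · exact ⟨l3, t3⟩
  exact ⟨ok, hwx, hw, hwa, fun m => (TabsSem.of_tb ok hwx (hm m).1 (hm m).2).1,
    fun m => (TabsSem.of_tb ok hwx (hm m).1 (hm m).2).2⟩

/-- The parameters of the law. -/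
theorem TabsSem.par (h : TabsSem C T) :
    Par (ratio C) C.R C.N T.labs.length (fun t => T.labs.getD t 0) where
  hr := div_pos (by exact_mod_cast h.ok.hp) (by exact_mod_cast h.ok.hq)
  hN := h.ok.hN
  ha := fun t => (h.ok.hlabs _ (CfgOK.lab_mem t.2)).1
  hb := fun t => (h.ok.hlabs _ (CfgOK.lab_mem t.2)).2

end Sem

end Burn

end

end Vale.Agent.P154.Hel
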