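import Vale.Agent.P154.Hel.Burn.Core

/-!
The law attached to a state of the burn-in: atoms on a logarithmic lattice, the three rays `S_i`
and the three vertices. The `4`-fold product law is computed through one power of a packed
polynomial for each pattern of vanishing coordinates.
-/

namespace Vale.Agent.P154.Hel

open Finset

noncomputable section

namespace Burn

/-- The index type of a state. -/
abbrev Om (Mt : ℕ) := Fin Mt ⊕ (Fin 3 ⊕ Fin 3)

/-- Zeroing of a coordinate. -/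
def maskV (i : Fin 3) (v : Fin 3 → ℝ) : Fin 3 → ℝ := fun j => if j = i then 0 else v j

variable (r : ℝ) (R N : ℕ) {Mt : ℕ} (ι : ℕ → ℕ) (w : ℕ) (c : ℕ → ℕ) (ρ : Fin 3 → ℝ)

theorem fin3_ne (i : Fin 3) : i + 1 ≠ i + 2 := by
  revert i
  decide

theorem fin3_cases (i j : Fin 3) (h : j ≠ i) : j = i + 1 ∨ j = i + 2 := by
  revert i j
  decide

/-- Powers of the ratio at the level of the atoms. -/
def eT (a : ℕ) : ℝ := r ^ ((a : ℤ) - (R : ℤ))

/-- Powers of the ratio at the level of the products. -/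
def eX (A : ℕ) : ℝ := r ^ ((A : ℤ) - 4 * (R : ℤ))

/-- The rays at the level of the products. -/
def rayX (k : ℕ) : Fin 3 → ℝ := ![1, eX r R (k / N), eX r R (k % N)]

/-- First exponent of an atom. -/
def aO : Om Mt → ℕ
  | .inl t => ι t / N
  | .inr _ => R

/-- Second exponent of an atom. -/
def bO : Om Mt → ℕ
  | .inl t => ι t % N
  | .inr _ => R

/-- The packed position of an atom. -/
def iO (ω : Om Mt) : ℕ := aO R N ι ω * N + bO R N ι ω

/-- The ray of an atom before masking. -/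
def rayO (ω : Om Mt) : Fin 3 → ℝ := ![1, eT r R (aO R N ι ω), eT r R (bO R N ι ω)]

/-- The coordinates kept by an atom. -/
def keepB : Om Mt → Fin 3 → Bool
  | .inl _, _ => true
  | .inr (.inl i), j => decide (j ≠ i)
  | .inr (.inr i), j => decide (j = i)

/-- The integer weight of an atom. -/
def cN : Om Mt → ℕ
  | .inl t => c t
  | .inr (.inl i) => c (Mt + i)
  | .inr (.inr _) => 0

/-- The weight of an atom. -/
def wt : Om Mt → ℝ
  | .inl t => (c t : ℝ) / 2 ^ w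
  | .inr (.inl i) => (c (Mt + i) : ℝ) / 2 ^ w
  | .inr (.inr i) => ρ i

/-- The law of a state. -/
def Qv (ω : Om Mt) (j : Fin 3) : ℝ := wt w c ρ ω * (if keepB ω j = true then rayO r R N ι ω j else 0)

/-- The position of a tuple of atoms. -/
def posT (f : Fin 4 → Om Mt) : ℕ := ∑ k, iO R N ι (f k)

/-- The integer weight of a tuple. -/
def cF (f : Fin 4 → Om Mt) : ℕ := ∏ k, cN c (f k)

/-- The coordinate `j` is kept by all atoms of the tuple. -/
def KK (j : Fin 3) (f : Fin 4 → Om Mt) : Prop := ∀ k, keepB (f k) j = true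

/-- The atoms keeping the coordinates of a set. -/
def setK (Mt : ℕ) (J : Finset (Fin 3)) : Finset (Om Mt) :=
  univ.filter fun ω => ∀ j ∈ J, keepB ω j = true

/-- The sum over the atoms of a set of the packed monomials. -/
def encS (W : ℕ) (S : Finset (Om Mt)) : ℕ := ∑ ω ∈ S, cN c ω * W ^ iO R N ι ω

variable {r R N ι w c ρ}

theorem eT_pos (hr : 0 < r) (a : ℕ) : 0 < eT r R a := zpow_pos hr _

theorem eX_pos (hr : 0 < r) (A : ℕ) : 0 < eX r R A := zpow_pos hr _

theorem eT_self : eT r R R = 1 := by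
  unfold eT
  simp

theorem eT_prod (hr : 0 < r) (a : Fin 4 → ℕ) : ∏ k, eT r R (a k) = eX r R (∑ k, a k) := by
  unfold eT eX
  rw [Fin.prod_univ_four, Fin.sum_univ_four, ← zpow_add₀ hr.ne', ← zpow_add₀ hr.ne',
    ← zpow_add₀ hr.ne']
  congr 1
  push_cast
  ring

theorem rayX_nonneg (hr : 0 < r) (k : ℕ) (j : Fin 3) : 0 ≤ rayX r R N k j := by
  fin_cases j
  · simp [rayX]
  · exact (eX_pos hr _).le
  · exact (eX_pos hr _).le

theorem rayO_nonneg (hr : 0 < r) (ω : Om Mt) (j : Fin 3) : 0 ≤ rayO r R N ι ω j := by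
  fin_cases j
  · simp [rayO]
  · exact (eT_pos hr _).le
  · exact (eT_pos hr _).le

theorem maskV_nonneg {v : Fin 3 → ℝ} (hv : ∀ j, 0 ≤ v j) (i j : Fin 3) : 0 ≤ maskV i v j := by
  unfold maskV
  split_ifs
  · exact le_rfl
  · exact hv j

theorem wt_nonneg (hρ : ∀ i, 0 ≤ ρ i) (ω : Om Mt) : 0 ≤ wt w c ρ ω := by
  rcases ω with t | i | i
  · exact div_nonneg (Nat.cast_nonneg _) (by positivity)
  · exact div_nonneg (Nat.cast_nonneg _) (by positivity)
  · exact hρ i

theorem Qv_nonneg (hr : 0 < r) (hρ : ∀ i, 0 ≤ ρ i) (ω : Om Mt) (j : Fin 3) :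
    0 ≤ Qv r R N ι w c ρ ω j := by
  unfold Qv
  refine mul_nonneg (wt_nonneg hρ ω) ?_
  split_ifs
  · exact rayO_nonneg hr ω j
  · exact le_rfl

/-- Hypotheses on the parameters. -/
structure Par (r : ℝ) (R N Mt : ℕ) (ι : ℕ → ℕ) : Prop where
  hr : 0 < r
  hN : N = 8 * R + 1
  ha : ∀ t : Fin Mt, ι t / N ≤ 2 * R
  hb : ∀ t : Fin Mt, ι t % N ≤ 2 * R

theorem aO_le (hP : Par r R N Mt ι) (ω : Om Mt) : aO R N ι ω ≤ 2 * R := by
  rcases ω with t | _
  · exact hP.ha t
  · show R ≤ 2 * R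
    omega

theorem bO_le (hP : Par r R N Mt ι) (ω : Om Mt) : bO R N ι ω ≤ 2 * R := by
  rcases ω with t | _
  · exact hP.hb t
  · show R ≤ 2 * R
    omega

theorem sum_bO_lt (hP : Par r R N Mt ι) (f : Fin 4 → Om Mt) : ∑ k, bO R N ι (f k) < N := by
  have h : ∀ k, bO R N ι (f k) ≤ 2 * R := fun k => bO_le hP (f k)
  have hN := hP.hN
  rw [Fin.sum_univ_four]
  have h0 := h 0
  have h1 := h 1
  have h2 := h 2
  have h3 := h 3
  omega

theorem posT_eq (f : Fin 4 → Om Mt) :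
    posT R N ι f = (∑ k, aO R N ι (f k)) * N + ∑ k, bO R N ι (f k) := by
  unfold posT iO
  rw [Finset.sum_add_distrib, Finset.sum_mul]

theorem posT_div (hP : Par r R N Mt ι) (f : Fin 4 → Om Mt) :
    posT R N ι f / N = ∑ k, aO R N ι (f k) := by
  rw [posT_eq]
  have h := sum_bO_lt hP f
  have hN : 0 < N := by omega
  rw [mul_comm, Nat.mul_add_div hN, Nat.div_eq_of_lt h, add_zero]

theorem posT_mod (hP : Par r R N Mt ι) (f : Fin 4 → Om Mt) :
    posT R N ι f % N = ∑ k, bO R N ι (f k) := by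
  rw [posT_eq]
  have h := sum_bO_lt hP f
  rw [mul_comm, Nat.mul_add_mod, Nat.mod_eq_of_lt h]

theorem posT_lt (hP : Par r R N Mt ι) (f : Fin 4 → Om Mt) : posT R N ι f < N * N := by
  rw [posT_eq]
  have h := sum_bO_lt hP f
  have ha : ∑ k, aO R N ι (f k) ≤ 8 * R := by
    have h' : ∀ k, aO R N ι (f k) ≤ 2 * R := fun k => aO_le hP (f k)
    rw [Fin.sum_univ_four]
    have h0 := h' 0
    have h1 := h' 1
    have h2 := h' 2
    have h3 := h' 3
    omega
  have hN := hP.hN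
  calc (∑ k, aO R N ι (f k)) * N + ∑ k, bO R N ι (f k)
      < (∑ k, aO R N ι (f k)) * N + N := by omega
    _ = ((∑ k, aO R N ι (f k)) + 1) * N := by ring
    _ ≤ N * N := Nat.mul_le_mul_right _ (by omega)

/-- The product of the rays of a tuple. -/
theorem prod_rayO (hP : Par r R N Mt ι) (f : Fin 4 → Om Mt) (j : Fin 3) :
    ∏ k, rayO r R N ι (f k) j = rayX r R N (posT R N ι f) j := by
  fin_cases j
  · simp [rayO, rayX]
  · show ∏ k, eT r R (aO R N ι (f k)) = eX r R (posT R N ι f / N)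
    rw [posT_div hP]
    exact eT_prod hP.hr _
  · show ∏ k, eT r R (bO R N ι (f k)) = eX r R (posT R N ι f % N)
    rw [posT_mod hP]
    exact eT_prod hP.hr _

theorem x_of_not_KK {f : Fin 4 → Om Mt} {j : Fin 3} (h : ¬ KK j f) :
    powLaw (Qv r R N ι w c ρ) 4 f j = 0 := by
  unfold KK at h
  push Not at h
  obtain ⟨k, hk⟩ := h
  refine Finset.prod_eq_zero (Finset.mem_univ k) ?_
  unfold Qv
  rw [if_neg hk, mul_zero]

theorem x_of_KK (hP : Par r R N Mt ι) {f : Fin 4 → Om Mt} {j : Fin 3} (h : KK j f) :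
    powLaw (Qv r R N ι w c ρ) 4 f j
      = (∏ k, wt w c ρ (f k)) * rayX r R N (posT R N ι f) j := by
  unfold powLaw Qv
  simp only [if_pos (h _)]
  rw [Finset.prod_mul_distrib, prod_rayO hP]

/-- An atom keeping two coordinates carries an integer weight. -/
theorem wt_of_keep {ω : Om Mt} {j j' : Fin 3} (hne : j ≠ j') (h1 : keepB ω j = true)
    (h2 : keepB ω j' = true) : wt w c ρ ω = (cN c ω : ℝ) / 2 ^ w := by
  rcases ω with t | i | i
  · rfl
  · rfl
  · exfalso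
    simp only [keepB, decide_eq_true_eq] at h1 h2
    exact hne (h1.trans h2.symm)

theorem prod_wt_of_KK {f : Fin 4 → Om Mt} {j j' : Fin 3} (hne : j ≠ j') (h1 : KK j f) (h2 : KK j' f) :
    ∏ k, wt w c ρ (f k) = ((2 : ℝ) ^ (4 * w))⁻¹ * (cF c f : ℝ) := by
  have e : ∀ k, wt w c ρ (f k) = (cN c (f k) : ℝ) / 2 ^ w := fun k =>
    wt_of_keep hne (h1 k) (h2 k)
  simp only [e]
  rw [Finset.prod_div_distrib, Finset.prod_const, Finset.card_univ, Fintype.card_fin]
  unfold cF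
  push_cast
  rw [div_eq_inv_mul, pow_mul']

/-- A homogeneous function. -/
def Hom1 (G : (Fin 3 → ℝ) → ℝ) : Prop :=
  ∀ (a : ℝ) (x : Fin 3 → ℝ), 0 ≤ a → (∀ i, 0 ≤ x i) → G (fun i => a * x i) = a * G x

theorem Hom1.zero {G : (Fin 3 → ℝ) → ℝ} (hG : Hom1 G) : G (fun _ => 0) = 0 := by
  have := hG 0 (fun _ => 0) le_rfl (fun _ => le_rfl)
  simpa using this

/-- The values of a tuple keeping all coordinates. -/
theorem G_all (hP : Par r R N Mt ι) {G : (Fin 3 → ℝ) → ℝ} (hG : Hom1 G) {f : Fin 4 → Om Mt}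
    (h0 : KK 0 f) (h1 : KK 1 f) (h2 : KK 2 f) :
    G (powLaw (Qv r R N ι w c ρ) 4 f)
      = ((2 : ℝ) ^ (4 * w))⁻¹ * (cF c f : ℝ) * G (rayX r R N (posT R N ι f)) := by
  have e : powLaw (Qv r R N ι w c ρ) 4 f
      = fun j => (((2 : ℝ) ^ (4 * w))⁻¹ * (cF c f : ℝ)) * rayX r R N (posT R N ι f) j := by
    funext j
    have hj : KK j f := by
      fin_cases j
      · exact h0
      · exact h1
      · exact h2
    rw [x_of_KK hP hj, prod_wt_of_KK (j := 0) (j' := 1) (by decide) h0 h1]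
  rw [e, hG _ _ (by positivity) (rayX_nonneg hP.hr _)]

/-- The values of a tuple losing exactly the coordinate `i`. -/
theorem G_one (hP : Par r R N Mt ι) {G : (Fin 3 → ℝ) → ℝ} (hG : Hom1 G) {f : Fin 4 → Om Mt}
    {i : Fin 3} (h : ¬ KK i f) (h1 : KK (i + 1) f) (h2 : KK (i + 2) f) :
    G (powLaw (Qv r R N ι w c ρ) 4 f)
      = ((2 : ℝ) ^ (4 * w))⁻¹ * (cF c f : ℝ) * G (maskV i (rayX r R N (posT R N ι f))) := by
  have hne : i + 1 ≠ i + 2 := fin3_ne i
  have e : powLaw (Qv r R N ι w c ρ) 4 f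
      = fun j => (((2 : ℝ) ^ (4 * w))⁻¹ * (cF c f : ℝ)) * maskV i (rayX r R N (posT R N ι f)) j := by
    funext j
    by_cases hj : j = i
    · subst hj
      rw [x_of_not_KK h]
      simp [maskV]
    · have hjK : KK j f := by
        rcases fin3_cases i j hj with rfl | rfl
        · exact h1
        · exact h2
      rw [x_of_KK hP hjK, prod_wt_of_KK hne h1 h2]
      simp [maskV, hj]
  rw [e, hG _ _ (by positivity) (maskV_nonneg (rayX_nonneg hP.hr _) i)]

/-- The values of a tuple keeping only the coordinate `i`. -/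
theorem G_vtx {G : (Fin 3 → ℝ) → ℝ} (hG : Hom1 G) (hr : 0 < r) (hρ : ∀ i, 0 ≤ ρ i)
    {f : Fin 4 → Om Mt} {i : Fin 3} (h1 : ¬ KK (i + 1) f) (h2 : ¬ KK (i + 2) f) :
    G (powLaw (Qv r R N ι w c ρ) 4 f)
      = powLaw (Qv r R N ι w c ρ) 4 f i * G (vtx i) := by
  have e : powLaw (Qv r R N ι w c ρ) 4 f
      = fun j => powLaw (Qv r R N ι w c ρ) 4 f i * vtx i j := by
    funext j
    by_cases hj : j = i
    · subst hj
      simp [vtx]
    · have hjK : j = i + 1 ∨ j = i + 2 := fin3_cases i j hj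
      have hz : powLaw (Qv r R N ι w c ρ) 4 f j = 0 := by
        rcases hjK with rfl | rfl
        · exact x_of_not_KK h1
        · exact x_of_not_KK h2
      have hv : vtx i j = 0 := by
        unfold vtx
        rw [if_neg (Ne.symm hj)]
      rw [hz, hv, mul_zero]
  have hnn : 0 ≤ powLaw (Qv r R N ι w c ρ) 4 f i :=
    Finset.prod_nonneg fun k _ => Qv_nonneg hr hρ _ _
  have h3 := hG _ (vtx i) hnn (vtx_nonneg i)
  rwa [← e] at h3

/-- The values of a tuple with no coordinate. -/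
theorem G_none {G : (Fin 3 → ℝ) → ℝ} (hG : Hom1 G) {f : Fin 4 → Om Mt} (h0 : ¬ KK 0 f)
    (h1 : ¬ KK 1 f) (h2 : ¬ KK 2 f) : G (powLaw (Qv r R N ι w c ρ) 4 f) = 0 := by
  have e : powLaw (Qv r R N ι w c ρ) 4 f = fun _ => 0 := by
    funext j
    fin_cases j
    · exact x_of_not_KK h0
    · exact x_of_not_KK h1
    · exact x_of_not_KK h2
  rw [e, hG.zero]

/-- Tuples with values in a set of atoms given by kept coordinates. -/
theorem mem_pi_setK (J : Finset (Fin 3)) (f : Fin 4 → Om Mt) :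
    f ∈ Fintype.piFinset (fun _ => setK Mt J) ↔ ∀ j ∈ J, KK j f := by
  simp only [Fintype.mem_piFinset, setK, Finset.mem_filter, Finset.mem_univ, true_and, KK]
  exact ⟨fun h j hj k => h k j hj, fun h k j hj => h j hj k⟩

/-- Powers of sums as sums over tuples. -/
theorem pow_sum_pi {A : Type*} [CommSemiring A] (S : Finset (Om Mt)) (u : Om Mt → A) :
    (∑ ω ∈ S, u ω) ^ 4 = ∑ f ∈ Fintype.piFinset (fun _ : Fin 4 => S), ∏ k, u (f k) := by
  have := Finset.prod_univ_sum (fun _ : Fin 4 => S) (fun _ ω => u ω)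
  simp only [Finset.prod_const, Finset.card_univ, Fintype.card_fin] at this
  exact this

/-- The packed power of a set of atoms. -/
theorem enc_pow (W : ℕ) (S : Finset (Om Mt)) :
    (encS R N ι c W S) ^ 4 = ∑ f ∈ Fintype.piFinset (fun _ : Fin 4 => S),
      cF c f * W ^ posT R N ι f := by
  unfold encS
  rw [pow_sum_pi]
  refine Finset.sum_congr rfl fun f _ => ?_
  rw [Finset.prod_mul_distrib, Finset.prod_pow_eq_pow_sum]
  rfl

theorem sum_cF (S : Finset (Om Mt)) :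
    ∑ f ∈ Fintype.piFinset (fun _ : Fin 4 => S), cF c f = (∑ ω ∈ S, cN c ω) ^ 4 :=
  (pow_sum_pi S (cN c)).symm

theorem sum_cF_le {S T : Finset (Om Mt)} (hS : S ⊆ T) :
    ∑ f ∈ Fintype.piFinset (fun _ : Fin 4 => S), cF c f ≤ (∑ ω ∈ T, cN c ω) ^ 4 := by
  rw [sum_cF]
  exact Nat.pow_le_pow_left (Finset.sum_le_sum_of_subset hS) 4

open Vale.Agent.P154.Hel.TM in
/-- The values of a packed power. -/
theorem lam_enc_pow (hP : Par r R N Mt ι) {W : ℕ} (hW : 0 < W) (S : Finset (Om Mt))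
    (hs : (∑ ω ∈ S, cN c ω) ^ 4 < W) (g : ℕ → ℝ) :
    lam W (N * N) ((encS R N ι c W S) ^ 4) g
      = ∑ f ∈ Fintype.piFinset (fun _ : Fin 4 => S), (cF c f : ℝ) * g (posT R N ι f) := by
  rw [enc_pow]
  refine lam_family _ _ _ hW (fun f _ => posT_lt hP f) ?_ g
  rw [sum_cF]
  exact hs

/-- Subsets of tuples as filters. -/
theorem pi_mono {S T : Finset (Om Mt)} (h : S ⊆ T) :
    Fintype.piFinset (fun _ : Fin 4 => S) ⊆ Fintype.piFinset (fun _ : Fin 4 => T) :=
  Fintype.piFinset_subset _ _ fun _ => h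

open Vale.Agent.P154.Hel.TM in
/-- The values of a difference of packed powers. -/
theorem lam_enc_diff (hP : Par r R N Mt ι) {W : ℕ} (hW : 0 < W) {S T : Finset (Om Mt)} (h : S ⊆ T)
    (hs : (∑ ω ∈ T, cN c ω) ^ 4 < W) (g : ℕ → ℝ) :
    lam W (N * N) ((encS R N ι c W T) ^ 4 - (encS R N ι c W S) ^ 4) g
      = ∑ f ∈ Fintype.piFinset (fun _ : Fin 4 => T) \ Fintype.piFinset (fun _ : Fin 4 => S),
          (cF c f : ℝ) * g (posT R N ι f) := by
  have e : (encS R N ι c W T) ^ 4 - (encS R N ι c W S) ^ 4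
      = ∑ f ∈ Fintype.piFinset (fun _ : Fin 4 => T) \ Fintype.piFinset (fun _ : Fin 4 => S),
          cF c f * W ^ posT R N ι f := by
    rw [enc_pow, enc_pow, ← Finset.sum_sdiff (pi_mono h), Nat.add_sub_cancel]
  rw [e]
  refine lam_family _ _ _ hW (fun f _ => posT_lt hP f) ?_ g
  refine lt_of_le_of_lt ?_ hs
  rw [← sum_cF]
  exact Finset.sum_le_sum_of_subset Finset.sdiff_subset

/-- The atoms on the lattice. -/
def PS (Mt : ℕ) : Finset (Om Mt) := setK Mt univ

/-- The atoms on the lattice and one ray. -/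
def AS (Mt : ℕ) (i : Fin 3) : Finset (Om Mt) := setK Mt {i + 1, i + 2}

/-- The atoms keeping a coordinate. -/
def BS (Mt : ℕ) (i : Fin 3) : Finset (Om Mt) := setK Mt {i}

/-- Tuples reduced to a vertex. -/
def EE (Mt : ℕ) (i : Fin 3) : Finset (Fin 4 → Om Mt) := by
  classical
  exact univ.filter fun f => KK i f ∧ ¬ KK (i + 1) f ∧ ¬ KK (i + 2) f

theorem mem_EE {i : Fin 3} {f : Fin 4 → Om Mt} :
    f ∈ EE Mt i ↔ KK i f ∧ ¬ KK (i + 1) f ∧ ¬ KK (i + 2) f := by
  classical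
  simp [EE]

theorem mem_pi_PS {f : Fin 4 → Om Mt} :
    f ∈ Fintype.piFinset (fun _ : Fin 4 => PS Mt) ↔ KK 0 f ∧ KK 1 f ∧ KK 2 f := by
  unfold PS
  rw [mem_pi_setK]
  constructor
  · intro h
    exact ⟨h 0 (mem_univ _), h 1 (mem_univ _), h 2 (mem_univ _)⟩
  · rintro ⟨h0, h1, h2⟩ j _
    fin_cases j
    · exact h0
    · exact h1
    · exact h2

theorem mem_pi_AS {i : Fin 3} {f : Fin 4 → Om Mt} :
    f ∈ Fintype.piFinset (fun _ : Fin 4 => AS Mt i) ↔ KK (i + 1) f ∧ KK (i + 2) f := by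
  unfold AS
  rw [mem_pi_setK]
  simp

theorem mem_pi_BS {i : Fin 3} {f : Fin 4 → Om Mt} :
    f ∈ Fintype.piFinset (fun _ : Fin 4 => BS Mt i) ↔ KK i f := by
  unfold BS
  rw [mem_pi_setK]
  simp

theorem PS_sub_AS (i : Fin 3) : PS Mt ⊆ AS Mt i := by
  intro ω hω
  simp only [PS, AS, setK, mem_filter, mem_univ, true_and, true_imp_iff] at hω ⊢
  exact fun j _ => hω j

/-- The decomposition of the sum over tuples. -/
theorem stage1 (hP : Par r R N Mt ι) (hρ : ∀ i, 0 ≤ ρ i) {G : (Fin 3 → ℝ) → ℝ} (hG : Hom1 G)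
    {W : ℕ} (hW : 0 < W) (hs : ∀ i, (∑ ω ∈ AS Mt i, cN c ω) ^ 4 < W) :
    ∑ f : Fin 4 → Om Mt, G (powLaw (Qv r R N ι w c ρ) 4 f)
      = ((2 : ℝ) ^ (4 * w))⁻¹ * (TM.lam W (N * N) ((encS R N ι c W (PS Mt)) ^ 4)
            (fun k => G (rayX r R N k))
          + ∑ i, TM.lam W (N * N) ((encS R N ι c W (AS Mt i)) ^ 4 - (encS R N ι c W (PS Mt)) ^ 4)
            (fun k => G (maskV i (rayX r R N k))))
        + ∑ i, (∑ f ∈ EE Mt i, powLaw (Qv r R N ι w c ρ) 4 f i) * G (vtx i) := by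
  classical
  have hs0 : (∑ ω ∈ PS Mt, cN c ω) ^ 4 < W :=
    lt_of_le_of_lt (Nat.pow_le_pow_left (Finset.sum_le_sum_of_subset (PS_sub_AS 0)) 4) (hs 0)
  rw [lam_enc_pow hP hW _ hs0]
  have hd := fun i => lam_enc_diff (c := c) hP hW (PS_sub_AS i) (hs i)
    (fun k => G (maskV i (rayX r R N k)))
  simp only [hd]
  set a : ℝ := ((2 : ℝ) ^ (4 * w))⁻¹ with ha
  -- the pointwise identity
  have key : ∀ f : Fin 4 → Om Mt, G (powLaw (Qv r R N ι w c ρ) 4 f)
      = (if f ∈ Fintype.piFinset (fun _ : Fin 4 => PS Mt) then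
            a * ((cF c f : ℝ) * G (rayX r R N (posT R N ι f))) else 0)
        + ∑ i, (if f ∈ Fintype.piFinset (fun _ : Fin 4 => AS Mt i) \ Fintype.piFinset (fun _ : Fin 4 => PS Mt)
            then a * ((cF c f : ℝ) * G (maskV i (rayX r R N (posT R N ι f)))) else 0)
        + ∑ i, (if f ∈ EE Mt i then powLaw (Qv r R N ι w c ρ) 4 f i * G (vtx i) else 0) := by
    intro f
    have e01 : (0 : Fin 3) + 1 = 1 := by decide
    have e02 : (0 : Fin 3) + 2 = 2 := by decide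
    have e11 : (1 : Fin 3) + 1 = 2 := by decide
    have e12 : (1 : Fin 3) + 2 = 0 := by decide
    have e21 : (2 : Fin 3) + 1 = 0 := by decide
    have e22 : (2 : Fin 3) + 2 = 1 := by decide
    have gall := fun h0 h1 h2 => G_all (w := w) (c := c) (ρ := ρ) (f := f) hP hG h0 h1 h2
    have gone0 : ¬ KK 0 f → KK 1 f → KK 2 f → _ := fun h h1 h2 =>
      G_one (w := w) (c := c) (ρ := ρ) (f := f) (i := 0) hP hG h (by rw [e01]; exact h1)
        (by rw [e02]; exact h2)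
    have gone1 : ¬ KK 1 f → KK 2 f → KK 0 f → _ := fun h h1 h2 =>
      G_one (w := w) (c := c) (ρ := ρ) (f := f) (i := 1) hP hG h (by rw [e11]; exact h1)
        (by rw [e12]; exact h2)
    have gone2 : ¬ KK 2 f → KK 0 f → KK 1 f → _ := fun h h1 h2 =>
      G_one (w := w) (c := c) (ρ := ρ) (f := f) (i := 2) hP hG h (by rw [e21]; exact h1)
        (by rw [e22]; exact h2)
    have gv0 : ¬ KK 1 f → ¬ KK 2 f → _ := fun h1 h2 =>
      G_vtx (r := r) (R := R) (N := N) (ι := ι) (w := w) (c := c) (ρ := ρ) (f := f) (i := 0) hG hP.hr hρ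
        (by rw [e01]; exact h1) (by rw [e02]; exact h2)
    have gv1 : ¬ KK 2 f → ¬ KK 0 f → _ := fun h1 h2 =>
      G_vtx (r := r) (R := R) (N := N) (ι := ι) (w := w) (c := c) (ρ := ρ) (f := f) (i := 1) hG hP.hr hρ
        (by rw [e11]; exact h1) (by rw [e12]; exact h2)
    have gv2 : ¬ KK 0 f → ¬ KK 1 f → _ := fun h1 h2 =>
      G_vtx (r := r) (R := R) (N := N) (ι := ι) (w := w) (c := c) (ρ := ρ) (f := f) (i := 2) hG hP.hr hρ
        (by rw [e21]; exact h1) (by rw [e22]; exact h2)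
    have gn := fun h0 h1 h2 => G_none (r := r) (R := R) (N := N) (ι := ι) (w := w) (c := c) (ρ := ρ) (f := f) hG h0 h1 h2
    simp only [Fin.sum_univ_three, Finset.mem_sdiff, mem_pi_PS, mem_pi_AS, mem_EE, e01, e02, e11,
      e12, e21, e22]
    by_cases h0 : KK 0 f <;> by_cases h1 : KK 1 f <;> by_cases h2 : KK 2 f
    · rw [gall h0 h1 h2]
      simp [h0, h1, h2]
      ring
    · rw [gone2 h2 h0 h1]
      simp [h0, h1, h2]
      ring
    · rw [gone1 h1 h2 h0]
      simp [h0, h1, h2]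
      ring
    · rw [gv0 h1 h2]
      simp [h0, h1, h2]
    · rw [gone0 h0 h1 h2]
      simp [h0, h1, h2]
      ring
    · rw [gv1 h2 h0]
      simp [h0, h1, h2]
    · rw [gv2 h0 h1]
      simp [h0, h1, h2]
    · rw [gn h0 h1 h2]
      simp [h0, h1, h2]
  simp only [key]
  rw [Finset.sum_add_distrib, Finset.sum_add_distrib, Finset.sum_comm (s := univ) (t := univ),
    Finset.sum_comm (s := univ) (t := (univ : Finset (Fin 3)))]
  simp only [Finset.sum_ite_mem, Finset.univ_inter, Finset.sum_ite_mem, ← Finset.mul_sum, mul_add,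
    Finset.sum_mul, add_assoc]

/-- The sum over tuples of one coordinate. -/
theorem sum_pi_coord (S : Finset (Om Mt)) (i : Fin 3) :
    ∑ f ∈ Fintype.piFinset (fun _ : Fin 4 => S), powLaw (Qv r R N ι w c ρ) 4 f i
      = (∑ ω ∈ S, Qv r R N ι w c ρ ω i) ^ 4 :=
  (pow_sum_pi S (fun ω => Qv r R N ι w c ρ ω i)).symm

theorem fin3_a (i : Fin 3) : i + 1 + 1 = i + 2 := by
  revert i
  decide

theorem fin3_b (i : Fin 3) : i + 1 + 2 = i := by
  revert i
  decide

theorem fin3_c (i : Fin 3) : i + 2 + 1 = i := by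
  revert i
  decide

theorem fin3_d (i : Fin 3) : i + 2 + 2 = i + 1 := by
  revert i
  decide

/-- The mass of the tuples reduced to a vertex. -/
theorem sum_EE (hN : ∀ i, ∑ ω : Om Mt, Qv r R N ι w c ρ ω i = 1) (i : Fin 3) :
    ∑ f ∈ EE Mt i, powLaw (Qv r R N ι w c ρ) 4 f i
      = 1 - (∑ ω ∈ AS Mt (i + 1), Qv r R N ι w c ρ ω i) ^ 4
        - (∑ ω ∈ AS Mt (i + 2), Qv r R N ι w c ρ ω i) ^ 4
        + (∑ ω ∈ PS Mt, Qv r R N ι w c ρ ω i) ^ 4 := by
  classical
  have hB : ∑ ω ∈ BS Mt i, Qv r R N ι w c ρ ω i = 1 := by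
    rw [← hN i]
    refine Finset.sum_subset (Finset.subset_univ _) fun ω _ hω => ?_
    have hk : keepB ω i ≠ true := by
      intro h
      apply hω
      simp [BS, setK, h]
    unfold Qv
    rw [if_neg hk, mul_zero]
  set A1 := Fintype.piFinset (fun _ : Fin 4 => AS Mt (i + 1)) with hA1
  set A2 := Fintype.piFinset (fun _ : Fin 4 => AS Mt (i + 2)) with hA2
  set P4 := Fintype.piFinset (fun _ : Fin 4 => PS Mt) with hP4
  set B4 := Fintype.piFinset (fun _ : Fin 4 => BS Mt i) with hB4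
  have m1 : ∀ f, f ∈ A1 ↔ KK (i + 2) f ∧ KK i f := fun f => by
    rw [hA1, mem_pi_AS, fin3_a, fin3_b]
  have m2 : ∀ f, f ∈ A2 ↔ KK i f ∧ KK (i + 1) f := fun f => by
    rw [hA2, mem_pi_AS, fin3_c, fin3_d]
  have m3 : ∀ f, f ∈ B4 ↔ KK i f := fun f => mem_pi_BS
  have m4 : ∀ f, f ∈ P4 ↔ KK i f ∧ KK (i + 1) f ∧ KK (i + 2) f := fun f => by
    rw [hP4, mem_pi_PS]
    fin_cases i
    · simp
    · simp only [Fin.mk_one, Fin.isValue]
      have e1 : (1 : Fin 3) + 1 = 2 := by decide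
      have e2 : (1 : Fin 3) + 2 = 0 := by decide
      rw [e1, e2]
      tauto
    · simp only [Fin.reduceFinMk, Fin.isValue]
      have e1 : (2 : Fin 3) + 1 = 0 := by decide
      have e2 : (2 : Fin 3) + 2 = 1 := by decide
      rw [e1, e2]
      tauto
  have hE : EE Mt i = B4 \ (A1 ∪ A2) := by
    ext f
    rw [mem_EE, Finset.mem_sdiff, Finset.mem_union, m1, m2, m3]
    tauto
  have hI : A1 ∩ A2 = P4 := by
    ext f
    rw [Finset.mem_inter, m1, m2, m4]
    tauto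
  have hU : A1 ∪ A2 ⊆ B4 := by
    intro f hf
    rw [Finset.mem_union, m1, m2] at hf
    rw [m3]
    tauto
  have h1 := Finset.sum_sdiff (f := fun f => powLaw (Qv r R N ι w c ρ) 4 f i) hU
  have h2 := Finset.sum_union_inter (s₁ := A1) (s₂ := A2)
    (f := fun f => powLaw (Qv r R N ι w c ρ) 4 f i)
  rw [hI] at h2
  rw [hE]
  rw [hB4, sum_pi_coord, hB, one_pow] at h1
  rw [hA1, hA2, hP4, sum_pi_coord, sum_pi_coord, sum_pi_coord] at h2
  rw [← hA1, ← hA2] at h2
  linarith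

end Burn

end

end Vale.Agent.P154.Hel
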