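import Mathlib.Data.Nat.Notation

/-!
The program checked in the kernel for the burn-in of the law of the tree at `(d, λ) = (4, -1/2)`:
recursion goes through the recursors, numbers are forced before they are passed on.
-/

namespace Vale.Agent.P154.Hel.Burn

/-- Evaluate a number before passing it on. -/
noncomputable def fc {α : Type} (n : ℕ) (k : ℕ → α) : α :=
  Nat.rec (motive := fun _ => α) (k (nat_lit 0)) (fun m _ => k (Nat.succ m)) n

theorem fc_eq {α : Type} (n : ℕ) (k : ℕ → α) : fc n k = k n := by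
  cases n <;> rfl

/-- A row of a table: the shift of the digit in the chunk, and three pairs
(shift of the target in the accumulator, coefficient). -/
structure Row where
  mk ::
  bs : ℕ
  s1 : ℕ
  m1 : ℕ
  s2 : ℕ
  m2 : ℕ
  s3 : ℕ
  m3 : ℕ

/-- The inner loop over the rows of one chunk of digits. -/
noncomputable def runI (D1 : ℕ) (rows : List Row) : ℕ → ℕ → ℕ :=
  List.rec (motive := fun _ => ℕ → ℕ → ℕ) (fun _ acc => acc)
    (fun r _ ih X acc =>
      Row.rec (motive := fun _ => ℕ) (fun bs s1 m1 s2 m2 s3 m3 =>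
        ih X (Nat.add acc (Nat.mul (Nat.land (Nat.shiftRight X bs) D1)
            (Nat.add (Nat.shiftLeft m1 s1) (Nat.add (Nat.shiftLeft m2 s2) (Nat.shiftLeft m3 s3)))))) r)
    rows

/-- The outer loop over the chunks. -/
noncomputable def runO (D1 C1 cb : ℕ) (tb : List (List Row)) : ℕ → ℕ → ℕ :=
  List.rec (motive := fun _ => ℕ → ℕ → ℕ) (fun _ acc => acc)
    (fun rows _ ih X acc =>
      fc (runI D1 rows (Nat.land X C1) acc) fun a' =>
        ih (Nat.shiftRight X cb) a')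
    tb

/-- A sum over the labels and digits of a state. -/
noncomputable def foldY (w D : ℕ) (f : ℕ → ℕ → ℕ) (labs : List ℕ) : ℕ → ℕ → ℕ :=
  List.rec (motive := fun _ => ℕ → ℕ → ℕ) (fun _ acc => acc)
    (fun l _ ih Y acc =>
      fc (Nat.add acc (f l (Nat.land Y D))) fun a' => ih (Nat.shiftRight Y w) a')
    labs

/-- Coverage of the digits of the next state, for the grid. -/
noncomputable def covL (w wa DW DA S : ℕ) : ℕ → ℕ → ℕ → Bool :=
  fun n => Nat.rec (motive := fun _ => ℕ → ℕ → Bool) (fun _ _ => true)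
    (fun _ ih Y A =>
      Bool.rec (motive := fun _ => Bool) false
        (ih (Nat.shiftRight Y w) (Nat.shiftRight A wa))
        (Nat.ble (Nat.shiftLeft (Nat.land Y DW) S) (Nat.land A DA)))
    n

/-- Scaled powers of the ratio `p / q`. -/
noncomputable def pw (p q off2 u : ℕ) : ℕ := Nat.mul (Nat.pow p u) (Nat.pow q (Nat.sub off2 u))

/-- The constants of the program. -/
structure Cfg where
  p : ℕ
  q : ℕ
  R : ℕ
  N : ℕ
  w : ℕ
  wm : ℕ
  wx : ℕ
  wa : ℕ

/-- The tables: labels and rows for the four masks. -/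
structure Tabs where
  labs : List ℕ
  tb0 : List (List Row)
  tb1 : List (List Row)
  tb2 : List (List Row)
  tb3 : List (List Row)

/-- The number `V` of the vertices, in the units of the accumulator, halved. -/
noncomputable def vlF (Sc D4 vsh ni sj sk : ℕ) : ℕ :=
  Nat.div (Nat.shiftLeft (Nat.sub (Nat.sub (Nat.add D4 (Nat.pow ni (nat_lit 4)))
      (Nat.pow (Nat.add ni (Nat.mul sj Sc)) (nat_lit 4)))
      (Nat.pow (Nat.add ni (Nat.mul sk Sc)) (nat_lit 4))) vsh) D4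

/-- One step of the check. -/
noncomputable def checkStep (C : Cfg) (T : Tabs) (Y Y' : ℕ) : Bool :=
  (fun (wx wa w Mt : ℕ) =>
  (fun (D D1 cb off2 sh3 : ℕ) =>
  (fun (C1 : ℕ) =>
  (fun (enc Ys ctr : ℕ) =>
  (fun (s0 s1 s2 : ℕ) =>
  (fun (X : ℕ) =>
  (fun (X0 X1 X2 Sc : ℕ) =>
  (fun (acc c0 n1 n2 : ℕ) =>
  (fun (D4 vsh S DA acs Yt : ℕ) =>
  and (Nat.blt (Nat.pow (Nat.add c0 (Nat.add s0 (Nat.add s1 s2))) (nat_lit 4)) (Nat.pow (nat_lit 2) wx))
  (and (covL w wa D DA S Mt Y' acc)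
  (and (Nat.ble (Nat.shiftLeft (Nat.land Yt D) S)
      (Nat.add (Nat.land acs DA) (vlF Sc D4 vsh (Nat.mul c0 Sc) s1 s2)))
  (and (Nat.ble (Nat.shiftLeft (Nat.land (Nat.shiftRight Yt w) D) S)
      (Nat.add (Nat.land (Nat.shiftRight acs wa) DA) (vlF Sc D4 vsh n1 s2 s0)))
    (Nat.ble (Nat.shiftLeft (Nat.land (Nat.shiftRight Yt (Nat.mul (nat_lit 2) w)) D) S)
      (Nat.add (Nat.land (Nat.shiftRight acs (Nat.mul (nat_lit 2) wa)) DA) (vlF Sc D4 vsh n2 s0 s1))))))
  ) (Nat.pow (Nat.shiftLeft Sc w) (nat_lit 4))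
    (Nat.pred (Nat.add (Nat.mul (nat_lit 4) w) C.wm))
    (Nat.add (Nat.mul (nat_lit 3) w) C.wm)
    (Nat.pred (Nat.pow (nat_lit 2) wa))
    (Nat.shiftRight acc (Nat.mul Mt wa))
    (Nat.shiftRight Y' (Nat.mul Mt w))
  ) (runO D1 C1 cb T.tb3 X2 (fc (runO D1 C1 cb T.tb2 X1 (fc (runO D1 C1 cb T.tb1 X0
        (fc (runO D1 C1 cb T.tb0 X (nat_lit 0)) fun a => a)) fun a => a)) fun a => a))
    (foldY w D (fun _ d => d) T.labs Y (nat_lit 0))
    (foldY w D (fun l d => Nat.mul d (pw C.p C.q off2 (Nat.add (Nat.div l C.N) sh3))) T.labs Y (nat_lit 0))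
    (foldY w D (fun l d => Nat.mul d (pw C.p C.q off2 (Nat.add (Nat.mod l C.N) sh3))) T.labs Y (nat_lit 0))
  ) (Nat.sub (Nat.pow (Nat.add enc (Nat.shiftLeft s0 ctr)) (nat_lit 4)) X)
    (Nat.sub (Nat.pow (Nat.add enc (Nat.shiftLeft s1 ctr)) (nat_lit 4)) X)
    (Nat.sub (Nat.pow (Nat.add enc (Nat.shiftLeft s2 ctr)) (nat_lit 4)) X)
    (Nat.pow (Nat.mul C.p C.q) (Nat.mul (nat_lit 4) C.R))
  ) (Nat.pow enc (nat_lit 4))
  ) (Nat.land Ys D) (Nat.land (Nat.shiftRight Ys w) D)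
    (Nat.land (Nat.shiftRight Ys (Nat.mul (nat_lit 2) w)) D)
  ) (foldY w D (fun l d => Nat.shiftLeft d (Nat.mul l wx)) T.labs Y (nat_lit 0))
    (Nat.shiftRight Y (Nat.mul Mt w))
    (Nat.mul wx (Nat.add (Nat.mul C.R C.N) C.R))
  ) (Nat.pred (Nat.pow (nat_lit 2) cb))
  ) (Nat.pred (Nat.pow (nat_lit 2) w)) (Nat.pred (Nat.pow (nat_lit 2) wx)) (Nat.mul C.N wx)
    (Nat.mul (nat_lit 8) C.R) (Nat.mul (nat_lit 3) C.R)
  ) C.wx C.wa C.w T.labs.length

/-- The initial state: the three rays `S_i` with weights one half. -/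
noncomputable def y0Of (C : Cfg) (T : Tabs) : ℕ :=
  Nat.mul (Nat.mul (Nat.pow (nat_lit 2) (Nat.pred C.w))
    (Nat.add (Nat.add (nat_lit 1) (Nat.pow (nat_lit 2) C.w))
      (Nat.pow (nat_lit 2) (Nat.mul (nat_lit 2) C.w))))
    (Nat.pow (nat_lit 2) (Nat.mul C.w T.labs.length))

/-- The final check: the centre monomial of the grid, for the ratio `(a / b) ^ 3`,
is at least `1 - θn / θd`. -/
noncomputable def finalCheck (C : Cfg) (T : Tabs) (a b θn θd Y : ℕ) : Bool :=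
  Nat.ble (Nat.mul (Nat.sub θd θn) (Nat.mul (Nat.pow (nat_lit 2) C.w)
      (Nat.pow (Nat.mul a b) (Nat.mul (nat_lit 2) C.R))))
    (Nat.mul θd (foldY C.w (Nat.pred (Nat.pow (nat_lit 2) C.w))
      (fun l d => Nat.mul d (Nat.mul (Nat.pow a (Nat.add (Nat.div l C.N) (Nat.mod l C.N)))
        (Nat.pow b (Nat.sub (Nat.mul (nat_lit 4) C.R) (Nat.add (Nat.div l C.N) (Nat.mod l C.N))))))
      T.labs Y (nat_lit 0)))

end Vale.Agent.P154.Hel.Burn
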