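import Vale.Agent.P154.Hel.Burn.StepRow

/-!
The product law of a state in the terms of the program.
-/

namespace Vale.Agent.P154.Hel

open Finset

noncomputable section

namespace Burn

open TM

variable {C : Cfg} {T : Tabs} {Y Y' : ℕ}

/-- The digits of the big numbers. -/
def dOf (C : Cfg) (T : Tabs) (Y : ℕ) (m : Option (Fin 3)) (k : ℕ) : ℕ := dig (2 ^ C.wx) (XP C T Y m) k

/-- The scale of the fourth power. -/
def kap (C : Cfg) : ℝ := ((2 : ℝ) ^ (4 * C.w))⁻¹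

theorem kap_pos : 0 < kap C := by
  unfold kap
  positivity

/-- The mass going to the vertices. -/
def VVv (C : Cfg) (T : Tabs) (Y : ℕ) (i : Fin 3) : ℝ :=
  ∑ f ∈ EE T.labs.length i, powLaw (QS C T Y) 4 f i

theorem encS_PS : encS C.R C.N (labI T) (cOf C Y) (2 ^ C.wx) (PS T.labs.length) = encOf C T Y := by
  unfold encS encOf
  rw [sum_PS, ← Fin.sum_univ_eq_sum_range (fun t => cOf C Y t * 2 ^ (labI T t * C.wx)) T.labs.length]
  refine Finset.sum_congr rfl fun t _ => ?_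
  have e : iO C.R C.N (labI T) (Sum.inl t : Om T.labs.length) = labI T t := by
    unfold iO aO bO
    exact Nat.div_add_mod' _ _
  rw [e, ← pow_mul, mul_comm C.wx]
  rfl

theorem encS_AS (i : Fin 3) :
    encS C.R C.N (labI T) (cOf C Y) (2 ^ C.wx) (AS T.labs.length i)
      = encOf C T Y + cOf C Y (T.labs.length + i) * 2 ^ ctrOf C := by
  unfold encS
  rw [sum_AS]
  have := encS_PS (C := C) (T := T) (Y := Y)
  unfold encS at this
  rw [sum_PS] at this
  rw [this]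
  congr 1
  show cOf C Y (T.labs.length + i) * (2 ^ C.wx) ^ (C.R * C.N + C.R) = _
  rw [← pow_mul]
  rfl

theorem sum_cN_AS (i : Fin 3) :
    ∑ ω ∈ AS T.labs.length i, cN (cOf C Y) ω = c0Of C T Y + cOf C Y (T.labs.length + i) := by
  rw [sum_AS]
  unfold c0Of
  rw [← Fin.sum_univ_eq_sum_range (fun t => cOf C Y t) T.labs.length]
  rfl

/-- The size check, in the terms of the law. -/
theorem hs_of {Y : ℕ} (hs : (c0Of C T Y + (cOf C Y (T.labs.length + 0) + (cOf C Y (T.labs.length + 1)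
      + cOf C Y (T.labs.length + 2)))) ^ 4 < 2 ^ C.wx) (i : Fin 3) :
    (∑ ω ∈ AS T.labs.length i, cN (cOf C Y) ω) ^ 4 < 2 ^ C.wx := by
  refine lt_of_le_of_lt (Nat.pow_le_pow_left ?_ 4) hs
  rw [sum_cN_AS]
  fin_cases i <;> simp <;> omega

/-- The product law, in the terms of the program. -/
theorem stage2 (TS : TabsSem C T) (hρ : ∀ i, 0 ≤ rhoOf C T Y i)
    (hs : (c0Of C T Y + (cOf C Y (T.labs.length + 0) + (cOf C Y (T.labs.length + 1)
      + cOf C Y (T.labs.length + 2)))) ^ 4 < 2 ^ C.wx) {G : (Fin 3 → ℝ) → ℝ} (hG : Hom1 G) :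
    ∑ f : Fin 4 → Om T.labs.length, G (powLaw (QS C T Y) 4 f)
      = ∑ m : Option (Fin 3), ∑ k ∈ range (C.N * C.N),
          kap C * (dOf C T Y m k : ℝ) * G (mm m (rayX (ratio C) C.R C.N k))
        + ∑ i, VVv C T Y i * G (vtx i) := by
  have h1 := stage1 (r := ratio C) (R := C.R) (N := C.N) (ι := labI T) (w := C.w) (c := cOf C Y)
    (ρ := rhoOf C T Y) TS.par hρ hG (W := 2 ^ C.wx) (by positivity) (hs_of hs)
  unfold QS
  rw [h1]
  congr 1
  rw [Fintype.sum_option, encS_PS]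
  simp only [encS_AS, lam]
  rw [mul_add, Finset.mul_sum, Finset.mul_sum]
  congr 1
  · refine Finset.sum_congr rfl fun k _ => ?_
    rw [mul_assoc]
    rfl
  · refine Finset.sum_congr rfl fun i _ => ?_
    rw [Finset.mul_sum]
    refine Finset.sum_congr rfl fun k _ => ?_
    rw [mul_assoc]
    rfl

/-- The moments of the grid. -/
theorem nOf_spec (TS : TabsSem C T) (i : Fin 3) :
    (nOf C T Y i : ℝ)
      = (scOf C : ℝ) * ∑ t : Fin T.labs.length, (cOf C Y t : ℝ) * vT C T t i := by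
  have hv : ∀ t : Fin T.labs.length, vT C T t = _ := fun t => vT_lt (C := C) (T := T) t.2
  simp only [hv]
  fin_cases i
  · show ((c0Of C T Y * scOf C : ℕ) : ℝ) = _
    unfold c0Of
    rw [← Fin.sum_univ_eq_sum_range (fun t => cOf C Y t) T.labs.length]
    push_cast
    simp [mul_comm]
  · show ((∑ t ∈ range T.labs.length, cOf C Y t * pw C.p C.q (8 * C.R) (labI T t / C.N + 3 * C.R) : ℕ) : ℝ) = _
    rw [← Fin.sum_univ_eq_sum_range (fun t => cOf C Y t * pw C.p C.q (8 * C.R) (labI T t / C.N + 3 * C.R)) T.labs.length]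
    push_cast
    rw [Finset.mul_sum]
    refine Finset.sum_congr rfl fun t _ => ?_
    have e := TS.ok.pw_eT (TS.ok.hlabs _ (CfgOK.lab_mem t.2)).1
    have e' : (pw C.p C.q (8 * C.R) (labI T t / C.N + 3 * C.R) : ℝ) = _ := e
    rw [e']
    simp
    ring
  · show ((∑ t ∈ range T.labs.length, cOf C Y t * pw C.p C.q (8 * C.R) (labI T t % C.N + 3 * C.R) : ℕ) : ℝ) = _
    rw [← Fin.sum_univ_eq_sum_range (fun t => cOf C Y t * pw C.p C.q (8 * C.R) (labI T t % C.N + 3 * C.R)) T.labs.length]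
    push_cast
    rw [Finset.mul_sum]
    refine Finset.sum_congr rfl fun t _ => ?_
    have e := TS.ok.pw_eT (TS.ok.hlabs _ (CfgOK.lab_mem t.2)).2
    have e' : (pw C.p C.q (8 * C.R) (labI T t % C.N + 3 * C.R) : ℝ) = _ := e
    rw [e']
    simp
    ring

/-- The coordinate `i` of the grid. -/
theorem tauP (TS : TabsSem C T) (i : Fin 3) :
    ∑ ω ∈ PS T.labs.length, QS C T Y ω i = (nOf C T Y i : ℝ) / ((scOf C : ℝ) * 2 ^ C.w) := by
  rw [sum_PS, nOf_spec TS]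
  simp only [QS_inl]
  have h := TS.ok.sc_pos
  rw [eq_div_iff (by positivity), Finset.sum_mul, Finset.mul_sum]
  refine Finset.sum_congr rfl fun t _ => ?_
  field_simp

theorem Sv_ne {i j : Fin 3} (h : j ≠ i) : Sv i j = 1 := by
  unfold Sv
  rw [if_neg h]

theorem fin3_ne1 (i : Fin 3) : i ≠ i + 1 := by
  revert i
  decide

theorem fin3_ne2 (i : Fin 3) : i ≠ i + 2 := by
  revert i
  decide

/-- The coordinate `i` of the grid and of a ray `S`. -/
theorem tauA (TS : TabsSem C T) (i j : Fin 3) (h : i ≠ j) :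
    ∑ ω ∈ AS T.labs.length j, QS C T Y ω i
      = ((nOf C T Y i : ℝ) + (cOf C Y (T.labs.length + j) : ℝ) * (scOf C : ℝ))
        / ((scOf C : ℝ) * 2 ^ C.w) := by
  have h0 := tauP (C := C) (T := T) (Y := Y) TS i
  rw [sum_PS] at h0
  rw [sum_AS, h0, QS_S, vT_S, Sv_ne h]
  have hS := TS.ok.sc_pos
  field_simp

/-- The formula for the mass at the vertices. -/
theorem VV_formula (TS : TabsSem C T) (i : Fin 3) :
    VVv C T Y i = 1
      - (((nOf C T Y i : ℝ) + (cOf C Y (T.labs.length + (i + 1 : Fin 3)) : ℝ) * (scOf C : ℝ))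
          / ((scOf C : ℝ) * 2 ^ C.w)) ^ 4
      - (((nOf C T Y i : ℝ) + (cOf C Y (T.labs.length + (i + 2 : Fin 3)) : ℝ) * (scOf C : ℝ))
          / ((scOf C : ℝ) * 2 ^ C.w)) ^ 4
      + ((nOf C T Y i : ℝ) / ((scOf C : ℝ) * 2 ^ C.w)) ^ 4 := by
  have h := sum_EE (r := ratio C) (R := C.R) (N := C.N) (ι := labI T) (w := C.w) (c := cOf C Y)
    (ρ := rhoOf C T Y) (Mt := T.labs.length) (fun j => QS_norm (C := C) (T := T) (Y := Y) j) i
  unfold VVv
  unfold QS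
  rw [h]
  have h1 := tauA (C := C) (T := T) (Y := Y) TS i (i + 1) (fin3_ne1 i)
  have h2 := tauA (C := C) (T := T) (Y := Y) TS i (i + 2) (fin3_ne2 i)
  have h3 := tauP (C := C) (T := T) (Y := Y) TS i
  unfold QS at h1 h2 h3
  rw [h1, h2, h3]

/-- The truncated value of the vertices. -/
theorem vlF_le {Sc w vsh n sj sk : ℕ} (hSc : 0 < Sc) {V : ℝ}
    (hV : V = 1 - (((n : ℝ) + (sj : ℝ) * (Sc : ℝ)) / ((Sc : ℝ) * 2 ^ w)) ^ 4
      - (((n : ℝ) + (sk : ℝ) * (Sc : ℝ)) / ((Sc : ℝ) * 2 ^ w)) ^ 4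
      + ((n : ℝ) / ((Sc : ℝ) * 2 ^ w)) ^ 4) (hV0 : 0 ≤ V) :
    (vlF Sc ((Sc * 2 ^ w) ^ 4) vsh n sj sk : ℝ) ≤ 2 ^ vsh * V := by
  have hD : (0 : ℝ) < ((Sc : ℝ) * 2 ^ w) := by
    have : (0 : ℝ) < (Sc : ℝ) := by exact_mod_cast hSc
    positivity
  set D : ℕ := (Sc * 2 ^ w) ^ 4 with hDdef
  have hDr : (D : ℝ) = ((Sc : ℝ) * 2 ^ w) ^ 4 := by
    rw [hDdef]
    push_cast
    ring
  have hDpos : (0 : ℝ) < (D : ℝ) := by
    rw [hDr]
    positivity
  set P : ℕ := (n + sj * Sc) ^ 4 with hP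
  set Q : ℕ := (n + sk * Sc) ^ 4 with hQ
  have hPr : (P : ℝ) = ((n : ℝ) + (sj : ℝ) * (Sc : ℝ)) ^ 4 := by
    rw [hP]
    push_cast
    ring
  have hQr : (Q : ℝ) = ((n : ℝ) + (sk : ℝ) * (Sc : ℝ)) ^ 4 := by
    rw [hQ]
    push_cast
    ring
  have hE : V * (D : ℝ) = (D : ℝ) + (n : ℝ) ^ 4 - P - Q := by
    rw [hV, hDr, hPr, hQr]
    field_simp
    ring
  have hE0 : (0 : ℝ) ≤ (D : ℝ) + (n : ℝ) ^ 4 - P - Q := by
    rw [← hE]
    exact mul_nonneg hV0 hDpos.le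
  have hQ0 : (0 : ℝ) ≤ (Q : ℝ) := Nat.cast_nonneg _
  have hP0 : (0 : ℝ) ≤ (P : ℝ) := Nat.cast_nonneg _
  have h1 : P ≤ D + n ^ 4 := by
    have : (P : ℝ) ≤ ((D + n ^ 4 : ℕ) : ℝ) := by
      push_cast
      linarith
    exact_mod_cast this
  have h2 : Q ≤ D + n ^ 4 - P := by
    have : (Q : ℝ) ≤ ((D + n ^ 4 - P : ℕ) : ℝ) := by
      rw [Nat.cast_sub h1]
      push_cast
      linarith
    exact_mod_cast this
  have e : vlF Sc D vsh n sj sk = ((D + n ^ 4 - P) - Q) * 2 ^ vsh / D := by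
    unfold vlF
    rw [shl_eq]
    rfl
  rw [e]
  refine Nat.cast_div_le.trans ?_
  rw [div_le_iff₀ hDpos]
  push_cast [Nat.cast_sub h2, Nat.cast_sub h1]
  rw [mul_assoc, hE]
  rw [mul_comm]

end Burn

end

end Vale.Agent.P154.Hel
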