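import Vale.Agent.P154.Hel.Burn.Step1

/-!
Soundness of one step of the burn-in.
-/

namespace Vale.Agent.P154.Hel

open Finset

noncomputable section

namespace Burn

open TM

variable {C : Cfg} {T : Tabs} {Y Y' : ℕ}

/-- The digits of the accumulator. -/
def AccD (C : Cfg) (T : Tabs) (Y : ℕ) (t : ℕ) : ℕ :=
  ∑ m : Option (Fin 3), ∑ k ∈ range (C.N * C.N), dOf C T Y m k * MMn C (tbOf T m) k t

theorem accOf_eq (TS : TabsSem C T) :
    accOf C T Y = ∑ t ∈ range (T.labs.length + 3), AccD C T Y t * (2 ^ C.wa) ^ t := by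
  have hm : ∀ m : Option (Fin 3), sumO C.wx (C.N * C.wx) (tbOf T m) (XP C T Y m)
      = ∑ t ∈ range (T.labs.length + 3),
        (∑ k ∈ range (C.N * C.N), dOf C T Y m k * MMn C (tbOf T m) k t) * (2 ^ C.wa) ^ t := by
    intro m
    rw [sumO_eq TS.hwx TS.hN0 (TS.tabOK m)]
    have e : ∀ k ∈ range (C.N * C.N), dig (2 ^ C.wx) (XP C T Y m) k * eTab C.wx C.N (tbOf T m) k
        = ∑ t ∈ range (T.labs.length + 3),
          dOf C T Y m k * MMn C (tbOf T m) k t * (2 ^ C.wa) ^ t := by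
      intro k hk
      rw [eTab_eq TS m (Finset.mem_range.mp hk), Finset.mul_sum]
      refine Finset.sum_congr rfl fun t _ => ?_
      rw [mul_assoc]
      rfl
    rw [Finset.sum_congr rfl e, Finset.sum_comm]
    refine Finset.sum_congr rfl fun t _ => ?_
    rw [Finset.sum_mul]
  unfold AccD
  simp only [Finset.sum_mul]
  simp only [Fintype.sum_option, Fin.sum_univ_three, Finset.sum_add_distrib]
  have e0 := hm none
  have e1 := hm (some 0)
  have e2 := hm (some 1)
  have e3 := hm (some 2)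
  simp only [Finset.sum_mul] at e0 e1 e2 e3
  unfold accOf
  have t0 : tbOf T none = T.tb0 := rfl
  have t1 : tbOf T (some 0) = T.tb1 := rfl
  have t2 : tbOf T (some 1) = T.tb2 := rfl
  have t3 : tbOf T (some 2) = T.tb3 := rfl
  rw [t0] at e0
  rw [t1] at e1
  rw [t2] at e2
  rw [t3] at e3
  rw [e0, e1, e2, e3, add_assoc, add_assoc]
  rw [t0, t1, t2, t3, add_assoc]

/-- The channel on a vertex. -/
theorem T_vtx (i j : Fin 3) : Hel.T (-(1 / 2)) (vtx i) j = (1 / 2) * Sv i j := by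
  rw [T_half]
  unfold vtx Sv
  fin_cases i <;> fin_cases j <;> simp


/-- Index type of the pieces of the product law. -/
abbrev Alp (C : Cfg) := (Option (Fin 3) × Fin (C.N * C.N)) ⊕ Fin 3

/-- The pieces of the channel of the product law. -/
def UU (C : Cfg) (T : Tabs) (Y : ℕ) : Alp C → Fin 3 → ℝ :=
  Sum.elim
    (fun p j => kap C * (dOf C T Y p.1 p.2 : ℝ) * Hel.T (-(1 / 2)) (mm p.1 (rayX (ratio C) C.R C.N p.2)) j)
    (fun i j => VVv C T Y i * Hel.T (-(1 / 2)) (vtx i) j)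

/-- The coefficients of the cone decompositions. -/
def MU (C : Cfg) (T : Tabs) (Y : ℕ) : Alp C → Fin (T.labs.length + 3) → ℝ :=
  Sum.elim
    (fun p b => kap C * (dOf C T Y p.1 p.2 : ℝ) * ((MMn C (tbOf T p.1) p.2 b : ℝ) / 2 ^ C.wm))
    (fun i b => if (b : ℕ) = T.labs.length + i then VVv C T Y i / 2 else 0)

theorem sum_Alp (g : Alp C → ℝ) (g1 : Option (Fin 3) → ℕ → ℝ)
    (h : ∀ (m : Option (Fin 3)) (k : Fin (C.N * C.N)), g (.inl (m, k)) = g1 m k) :
    ∑ a, g a = ∑ m, ∑ k ∈ range (C.N * C.N), g1 m k + ∑ i, g (.inr i) := by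
  rw [Fintype.sum_sum_type, Fintype.sum_prod_type]
  congr 1
  refine Finset.sum_congr rfl fun m _ => ?_
  rw [← Fin.sum_univ_eq_sum_range (g1 m) (C.N * C.N)]
  exact Finset.sum_congr rfl fun k _ => h m k

section Main

variable (TS : TabsSem C T) (hρ : ∀ i, 0 ≤ rhoOf C T Y i)
  (hs : (c0Of C T Y + (cOf C Y (T.labs.length + 0) + (cOf C Y (T.labs.length + 1)
      + cOf C Y (T.labs.length + 2)))) ^ 4 < 2 ^ C.wx)

include TS hρ in
theorem VVv_nonneg (i : Fin 3) : 0 ≤ VVv C T Y i :=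
  Finset.sum_nonneg fun f _ => ((QS_NL TS hρ).pow 4).nonneg f i

include TS hρ hs in
/-- Conservation. -/
theorem UU_sum (j : Fin 3) : ∑ a, UU C T Y a j = 1 := by
  have hG : Hom1 (fun x => Hel.T (-(1 / 2)) x j) := fun a x _ _ => by
    unfold Hel.T mass
    ring
  have h1 := stage2 TS hρ hs hG
  have h2 := (((QS_NL TS hρ).pow 4).chan (lam := -(1 / 2)) le_rfl (by norm_num)).norm j
  have h3 : ∑ f, chanLaw (-(1 / 2)) (powLaw (QS C T Y) 4) f j
      = ∑ f, Hel.T (-(1 / 2)) (powLaw (QS C T Y) 4 f) j := rfl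
  rw [h3, h1] at h2
  rw [← h2]
  exact sum_Alp _ _ fun m k => rfl

include TS hρ hs in
/-- The sum of a function over the channel of the product law. -/
theorem UU_F {C0 : ℝ} {F : (Fin 3 → ℝ) → ℝ} (hF : CH C0 F) :
    ∑ f, F (chanLaw (-(1 / 2)) (powLaw (QS C T Y) 4) f) = ∑ a, F (UU C T Y a) := by
  have hC := hF.comp_T (lam := -(1 / 2)) le_rfl (by norm_num)
  have hG : Hom1 (fun x => F (Hel.T (-(1 / 2)) x)) := fun a x h1 h2 => hC.smul a x h1 h2
  have h1 := stage2 TS hρ hs hG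
  have h3 : ∑ f, F (chanLaw (-(1 / 2)) (powLaw (QS C T Y) 4) f)
      = ∑ f, F (Hel.T (-(1 / 2)) (powLaw (QS C T Y) 4 f)) := rfl
  rw [h3, h1]
  symm
  refine (sum_Alp (fun a => F (UU C T Y a))
    (fun m k => kap C * (dOf C T Y m k : ℝ) * F (Hel.T (-(1 / 2)) (mm m (rayX (ratio C) C.R C.N k))))
    fun m k => ?_).trans ?_
  · show F (fun j => kap C * (dOf C T Y m k : ℝ) * Hel.T (-(1 / 2)) (mm m (rayX (ratio C) C.R C.N k)) j) = _
    exact hF.smul _ _ (mul_nonneg kap_pos.le (Nat.cast_nonneg _)) (Tmm_nonneg TS m k)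
  · congr 1
    refine Finset.sum_congr rfl fun i _ => ?_
    show F (fun j => VVv C T Y i * Hel.T (-(1 / 2)) (vtx i) j) = _
    exact hF.smul _ _ (VVv_nonneg TS hρ i) (T_nonneg (vtx_nonneg i) le_rfl (by norm_num))

omit hρ hs in
include TS in
theorem MU_nonneg (hV : ∀ i, 0 ≤ VVv C T Y i) (a : Alp C) (b : Fin (T.labs.length + 3)) : 0 ≤ MU C T Y a b := by
  rcases a with p | i
  · exact mul_nonneg (mul_nonneg kap_pos.le (Nat.cast_nonneg _)) (by positivity)
  · show 0 ≤ if (b : ℕ) = T.labs.length + i then VVv C T Y i / 2 else 0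
    split_ifs
    · exact div_nonneg (hV i) (by norm_num)
    · exact le_rfl

omit hρ hs in
include TS in
theorem MU_cover (a : Alp C) (j : Fin 3) :
    ∑ b, MU C T Y a b * vT C T b j ≤ UU C T Y a j := by
  rcases a with ⟨m, k⟩ | i
  · show ∑ b : Fin (T.labs.length + 3), kap C * (dOf C T Y m k : ℝ)
        * ((MMn C (tbOf T m) k b : ℝ) / 2 ^ C.wm) * vT C T b j
        ≤ kap C * (dOf C T Y m k : ℝ) * Hel.T (-(1 / 2)) (mm m (rayX (ratio C) C.R C.N k)) j
    rw [Fin.sum_univ_eq_sum_range (fun b => kap C * (dOf C T Y m k : ℝ)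
        * ((MMn C (tbOf T m) k b : ℝ) / 2 ^ C.wm) * vT C T b j)]
    have e : ∀ b ∈ range (T.labs.length + 3), kap C * (dOf C T Y m k : ℝ)
        * ((MMn C (tbOf T m) k b : ℝ) / 2 ^ C.wm) * vT C T b j
        = kap C * (dOf C T Y m k : ℝ) * (((MMn C (tbOf T m) k b : ℝ) / 2 ^ C.wm) * vT C T b j) :=
      fun b _ => by ring
    rw [Finset.sum_congr rfl e, ← Finset.mul_sum]
    exact mul_le_mul_of_nonneg_left (row_ineq TS m k.2 j)
      (mul_nonneg kap_pos.le (Nat.cast_nonneg _))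
  · show ∑ b : Fin (T.labs.length + 3), (if (b : ℕ) = T.labs.length + i then VVv C T Y i / 2 else 0)
        * vT C T b j ≤ VVv C T Y i * Hel.T (-(1 / 2)) (vtx i) j
    rw [Fin.sum_univ_eq_sum_range (fun b => (if b = T.labs.length + i then VVv C T Y i / 2 else 0)
        * vT C T b j)]
    have e : ∀ b ∈ range (T.labs.length + 3), (if b = T.labs.length + i then VVv C T Y i / 2 else 0)
        * vT C T b j = if T.labs.length + (i : ℕ) = b then VVv C T Y i / 2 * vT C T b j else 0 :=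
      fun b _ => by
        by_cases h : b = T.labs.length + i
        · rw [if_pos h, if_pos h.symm]
        · rw [if_neg h, if_neg (fun e => h e.symm), zero_mul]
    rw [Finset.sum_congr rfl e, Finset.sum_ite_eq, if_pos (by simp), vT_S, T_vtx]
    exact le_of_eq (by ring)

/-- The scale of the accumulator. -/
def kap2 (C : Cfg) : ℝ := ((2 : ℝ) ^ (4 * C.w + C.wm))⁻¹

theorem kap2_pos : 0 < kap2 C := by
  unfold kap2
  positivity

theorem kap2_eq : kap2 C = kap C / 2 ^ C.wm := by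
  unfold kap2 kap
  rw [pow_add, mul_inv, div_eq_mul_inv]

/-- The grid part of the sum of the coefficients. -/
theorem MU_grid (b : ℕ) :
    ∑ m, ∑ k ∈ range (C.N * C.N), kap C * (dOf C T Y m k : ℝ) * ((MMn C (tbOf T m) k b : ℝ) / 2 ^ C.wm)
      = kap2 C * (AccD C T Y b : ℝ) := by
  unfold AccD
  push_cast
  rw [Finset.mul_sum]
  refine Finset.sum_congr rfl fun m _ => ?_
  rw [Finset.mul_sum]
  refine Finset.sum_congr rfl fun k _ => ?_
  rw [kap2_eq]
  ring

/-- The sum of the coefficients of a target. -/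
theorem MU_sum (b : Fin (T.labs.length + 3)) :
    ∑ a, MU C T Y a b = kap2 C * (AccD C T Y b : ℝ)
      + ∑ i : Fin 3, if (b : ℕ) = T.labs.length + i then VVv C T Y i / 2 else 0 := by
  rw [sum_Alp _ (fun m k => kap C * (dOf C T Y m k : ℝ) * ((MMn C (tbOf T m) k b : ℝ) / 2 ^ C.wm))
    (fun m k => rfl), MU_grid]
  rfl

include TS hρ hs in
/-- The digits of the accumulator do not overflow. -/
theorem AccD_le {t : ℕ} (ht : t < T.labs.length + 3) : (AccD C T Y t : ℝ) * kap2 C ≤ 1 := by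
  obtain ⟨j0, hj0⟩ := vT_one (C := C) (T := T) ht
  have hV := VVv_nonneg (C := C) (T := T) (Y := Y) TS hρ
  have hU := UU_sum TS hρ hs j0
  have h1 : ∑ a, MU C T Y a ⟨t, ht⟩ ≤ 1 := by
    have h2 : ∑ a, MU C T Y a ⟨t, ht⟩ ≤ ∑ a, ∑ b, MU C T Y a b * vT C T b j0 := by
      refine Finset.sum_le_sum fun a _ => ?_
      have h3 := Finset.single_le_sum (f := fun b : Fin (T.labs.length + 3) => MU C T Y a b * vT C T b j0)
        (s := univ) (fun b _ => mul_nonneg (MU_nonneg TS hV a b) (vT_nonneg TS b.2 j0))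
        (Finset.mem_univ ⟨t, ht⟩)
      simp only [hj0, mul_one] at h3
      exact h3
    refine h2.trans ?_
    rw [← hU]
    exact Finset.sum_le_sum fun a _ => MU_cover TS a j0
  rw [MU_sum] at h1
  have h4 : 0 ≤ ∑ i : Fin 3, if t = T.labs.length + i then VVv C T Y i / 2 else 0 :=
    Finset.sum_nonneg fun i _ => by
      split_ifs
      · exact div_nonneg (hV i) (by norm_num)
      · exact le_rfl
  simp only at h1
  linarith

include TS hρ hs in
theorem AccD_lt {t : ℕ} (ht : t < T.labs.length + 3) : AccD C T Y t < 2 ^ C.wa := by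
  have h := AccD_le TS hρ hs ht
  unfold kap2 at h
  rw [← div_eq_mul_inv, div_le_one (by positivity)] at h
  have h1 : AccD C T Y t ≤ 2 ^ (4 * C.w + C.wm) := by exact_mod_cast h
  exact lt_of_le_of_lt h1 (Nat.pow_lt_pow_right (by norm_num) TS.hwa)

include TS hρ hs in
/-- The digits of the accumulator. -/
theorem dig_acc {t : ℕ} (ht : t < T.labs.length + 3) :
    dig (2 ^ C.wa) (accOf C T Y) t = AccD C T Y t := by
  rw [accOf_eq TS]
  exact dig_sum (by positivity) _ _ (fun j hj => AccD_lt TS hρ hs hj) t ht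

/-- Rescaling an integer inequality. -/
theorem scale_grid {c' A S w wm : ℕ} (hS : S = 3 * w + wm) {κ : ℝ} (hκ : κ = ((2 : ℝ) ^ (4 * w + wm))⁻¹)
    {V : ℝ} {Vl : ℕ} (hV : (Vl : ℝ) ≤ 2 ^ (4 * w + wm - 1) * V) (hw : 0 < w)
    (h : c' * 2 ^ S ≤ A + Vl) : (c' : ℝ) / 2 ^ w ≤ κ * (A : ℝ) + V / 2 := by
  have h1 : (c' : ℝ) * 2 ^ S ≤ (A : ℝ) + (Vl : ℝ) := by exact_mod_cast h
  have e1 : (2 : ℝ) ^ (4 * w + wm) = 2 ^ S * 2 ^ w := by
    rw [hS, ← pow_add]
    congr 1
    ring
  have e2 : (2 : ℝ) ^ (4 * w + wm) = 2 ^ (4 * w + wm - 1) * 2 := by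
    rw [← pow_succ]
    congr 1
    omega
  have hP : (0 : ℝ) < 2 ^ (4 * w + wm) := by positivity
  have hP1 : (0 : ℝ) < 2 ^ (4 * w + wm - 1) := by positivity
  have hPS : (0 : ℝ) < 2 ^ S := by positivity
  have hPw : (0 : ℝ) < 2 ^ w := by positivity
  rw [hκ]
  rw [div_le_iff₀ hPw]
  have e3 : (((2 : ℝ) ^ (4 * w + wm))⁻¹ * (A : ℝ) + V / 2) * 2 ^ w
      = ((A : ℝ) + 2 ^ (4 * w + wm - 1) * V) / 2 ^ S := by
    have e4 : (2 : ℝ) ^ (4 * w + wm - 1) = 2 ^ S * 2 ^ w / 2 := by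
      rw [← e1, e2]
      field_simp
    rw [e1, e4]
    field_simp
  rw [e3, le_div_iff₀ hPS]
  linarith

/-- The law of one step dominates the channel of the product of the law of the previous step. -/
theorem step_sound (TS : TabsSem C T) (hρ : ∀ i, 0 ≤ rhoOf C T Y i)
    (h : checkStep C T Y Y' = true) :
    (∀ i, 0 ≤ rhoOf C T Y' i) ∧ DomL (chanLaw (-(1 / 2)) (powLaw (QS C T Y) 4)) (QS C T Y') := by
  obtain ⟨hs, hcov, hv0, hv1, hv2⟩ := checkStep_spec h
  have hV := VVv_nonneg (C := C) (T := T) (Y := Y) TS hρ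
  have hvi : ∀ i : Fin 3, cOf C Y' (T.labs.length + i) * 2 ^ (3 * C.w + C.wm)
      ≤ dig (2 ^ C.wa) (accOf C T Y) (T.labs.length + i)
        + vlF (scOf C) (d4Of C) (4 * C.w + C.wm - 1) (nOf C T Y i)
          (cOf C Y (T.labs.length + (i + 1 : Fin 3))) (cOf C Y (T.labs.length + (i + 2 : Fin 3))) := by
    intro i
    fin_cases i
    · exact hv0
    · exact hv1
    · exact hv2
  have h2 : ∀ b : Fin (T.labs.length + 3), (cOf C Y' b : ℝ) / 2 ^ C.w ≤ ∑ a, MU C T Y a b := by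
    intro b
    rw [MU_sum]
    by_cases hb : (b : ℕ) < T.labs.length
    · have h3 := hcov b hb
      rw [dig_acc TS hρ hs b.2] at h3
      have h4 := scale_grid (c' := cOf C Y' b) (A := AccD C T Y b) (V := 0) (Vl := 0) rfl (κ := kap2 C)
        rfl (by simp) TS.hw (by simpa using h3)
      have h5 : (∑ i : Fin 3, if (b : ℕ) = T.labs.length + i then VVv C T Y i / 2 else 0) = 0 :=
        Finset.sum_eq_zero fun i _ => if_neg (by omega)
      rw [h5]
      simpa using h4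
    · have hb2 := b.2
      obtain ⟨i, hi⟩ : ∃ i : Fin 3, (b : ℕ) = T.labs.length + i :=
        ⟨⟨b - T.labs.length, by omega⟩, by simp; omega⟩
      have h3 := hvi i
      rw [dig_acc TS hρ hs (by have := i.2; omega)] at h3
      have h6 : (vlF (scOf C) (d4Of C) (4 * C.w + C.wm - 1) (nOf C T Y i)
          (cOf C Y (T.labs.length + (i + 1 : Fin 3))) (cOf C Y (T.labs.length + (i + 2 : Fin 3))) : ℝ)
          ≤ 2 ^ (4 * C.w + C.wm - 1) * VVv C T Y i := by
        have hSc : 0 < scOf C := by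
          have := TS.ok.sc_pos
          exact_mod_cast this
        exact vlF_le hSc (VV_formula TS i) (hV i)
      have h4 := scale_grid (κ := kap2 C) rfl rfl h6 TS.hw h3
      have h5 : (∑ j : Fin 3, if (b : ℕ) = T.labs.length + j then VVv C T Y j / 2 else 0)
          = VVv C T Y i / 2 := by
        rw [Finset.sum_eq_single i]
        · rw [if_pos hi]
        · intro j _ hj
          rw [if_neg]
          intro e
          apply hj
          apply Fin.ext
          omega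
        · simp
      rw [h5, hi]
      exact h4
  have hv : ∀ (b : Fin (T.labs.length + 3)) (j : Fin 3), 0 ≤ vT C T b j := fun b j => vT_nonneg TS b.2 j
  have hρ' : ∀ i, 0 ≤ rhoOf C T Y' i := fun t => by
    have h3 := cover_nonneg (UU C T Y) (fun b : Fin (T.labs.length + 3) => vT C T b) hv
      (fun b => (cOf C Y' b : ℝ) / 2 ^ C.w) (MU C T Y) (MU_cover TS) h2 t
    rw [UU_sum TS hρ hs] at h3
    unfold rhoOf
    rw [← Fin.sum_univ_eq_sum_range (fun b => (cOf C Y' b : ℝ) / 2 ^ C.w * vT C T b t)]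
    linarith
  refine ⟨hρ', fun C0 F hF => ?_⟩
  rw [UU_F TS hρ hs hF, QS_sum_F hF TS hρ']
  have h3 := hF.cover_le (UU C T Y) (fun b : Fin (T.labs.length + 3) => vT C T b) hv
    (fun b => (cOf C Y' b : ℝ) / 2 ^ C.w) (MU C T Y) (MU_nonneg TS hV) (MU_cover TS) h2
  refine h3.trans (le_of_eq ?_)
  rw [Fin.sum_univ_eq_sum_range (fun b => (cOf C Y' b : ℝ) / 2 ^ C.w * F (vT C T b))]
  congr 1
  refine Finset.sum_congr rfl fun t _ => ?_
  rw [UU_sum TS hρ hs]
  unfold rhoOf
  rw [← Fin.sum_univ_eq_sum_range (fun b => (cOf C Y' b : ℝ) / 2 ^ C.w * vT C T b t)]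

end Main

end Burn

end

end Vale.Agent.P154.Hel
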