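import Vale.Agent.P154.Hel.Burn.StepProg

/-!
The law of a state of the burn-in.
-/

namespace Vale.Agent.P154.Hel

open Finset

noncomputable section

namespace Burn

open TM

variable {C : Cfg} {T : Tabs} {Y Y' : ℕ}

/-- The rest at the vertices of a state. -/
def rhoOf (C : Cfg) (T : Tabs) (Y : ℕ) (i : Fin 3) : ℝ :=
  1 - ∑ t ∈ range (T.labs.length + 3), ((cOf C Y t : ℝ) / 2 ^ C.w) * vT C T t i

/-- The law of a state. -/
def QS (C : Cfg) (T : Tabs) (Y : ℕ) : Om T.labs.length → Fin 3 → ℝ :=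
  Qv (ratio C) C.R C.N (labI T) C.w (cOf C Y) (rhoOf C T Y)

theorem vT_lt {t : ℕ} (ht : t < T.labs.length) :
    vT C T t = ![1, eT (ratio C) C.R (T.labs.getD t 0 / C.N), eT (ratio C) C.R (T.labs.getD t 0 % C.N)] := by
  unfold vT
  rw [if_pos ht]

theorem vT_S (i : Fin 3) : vT C T (T.labs.length + i) = Sv i := by
  unfold vT
  rw [if_neg (by omega), Nat.add_sub_cancel_left]
  congr 1
  fin_cases i <;> rfl

theorem Sv_nonneg (i j : Fin 3) : 0 ≤ Sv i j := by
  unfold Sv
  split_ifs <;> norm_num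

theorem TabsSem.ratio_pos (TS : TabsSem C T) : 0 < ratio C := TS.par.hr

theorem vT_nonneg (TS : TabsSem C T) {t : ℕ} (ht : t < T.labs.length + 3) (j : Fin 3) :
    0 ≤ vT C T t j := by
  by_cases h : t < T.labs.length
  · rw [vT_lt h]
    have h1 := (eT_pos (R := C.R) TS.ratio_pos (T.labs.getD t 0 / C.N)).le
    have h2 := (eT_pos (R := C.R) TS.ratio_pos (T.labs.getD t 0 % C.N)).le
    fin_cases j
    · simp
    · simpa using h1
    · simpa using h2
  · have e : t = T.labs.length + ((t - T.labs.length : ℕ) : ℕ) := by omega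
    have e2 : t - T.labs.length < 3 := by omega
    rw [e]
    have := vT_S (C := C) (T := T) ⟨t - T.labs.length, e2⟩
    simp only at this
    rw [this]
    exact Sv_nonneg _ _

theorem vT_one {t : ℕ} (ht : t < T.labs.length + 3) : ∃ j, vT C T t j = 1 := by
  by_cases h : t < T.labs.length
  · refine ⟨0, ?_⟩
    rw [vT_lt h]
    simp
  · have e : t = T.labs.length + ((t - T.labs.length : ℕ) : ℕ) := by omega
    have e2 : t - T.labs.length < 3 := by omega
    rw [e]
    have := vT_S (C := C) (T := T) ⟨t - T.labs.length, e2⟩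
    simp only at this
    rw [this]
    refine ⟨(⟨t - T.labs.length, e2⟩ : Fin 3) + 1, ?_⟩
    unfold Sv
    rw [if_neg]
    generalize (⟨t - T.labs.length, e2⟩ : Fin 3) = i
    revert i
    decide

theorem QS_inl (t : Fin T.labs.length) (j : Fin 3) :
    QS C T Y (.inl t) j = ((cOf C Y t : ℝ) / 2 ^ C.w) * vT C T t j := by
  rw [vT_lt t.2]
  unfold QS Qv
  simp only [keepB, if_true]
  rfl

theorem eT_R : eT (ratio C) C.R C.R = 1 := eT_self

theorem QS_S (i j : Fin 3) :
    QS C T Y (.inr (.inl i)) j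
      = ((cOf C Y (T.labs.length + i) : ℝ) / 2 ^ C.w) * vT C T (T.labs.length + i) j := by
  rw [vT_S]
  unfold QS Qv
  congr 1
  unfold Sv keepB rayO aO bO
  rw [eT_R]
  by_cases h : j = i
  · simp [h]
  · simp only [h, if_false, ne_eq, not_false_eq_true, decide_true, if_true]
    fin_cases j <;> simp

theorem QS_V (i j : Fin 3) :
    QS C T Y (.inr (.inr i)) j = rhoOf C T Y i * vtx i j := by
  unfold QS Qv
  congr 1
  unfold vtx keepB rayO aO bO
  rw [eT_R]
  by_cases h : j = i
  · subst h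
    simp only [decide_true, if_true]
    fin_cases j <;> simp
  · have h' : ¬ i = j := fun e => h e.symm
    simp [h, h']

theorem sum_Om {Mt : ℕ} (g : Om Mt → ℝ) :
    ∑ ω, g ω = ∑ t : Fin Mt, g (.inl t) + (∑ i, g (.inr (.inl i)) + ∑ i, g (.inr (.inr i))) := by
  rw [Fintype.sum_sum_type, Fintype.sum_sum_type]

theorem sum_range3 (Mt : ℕ) (f : ℕ → ℝ) :
    ∑ t ∈ range (Mt + 3), f t = ∑ t : Fin Mt, f t + ∑ i : Fin 3, f (Mt + i) := by
  rw [Finset.sum_range_add, ← Fin.sum_univ_eq_sum_range f Mt,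
    ← Fin.sum_univ_eq_sum_range (fun i => f (Mt + i)) 3]

theorem QS_norm (i : Fin 3) : ∑ ω, QS C T Y ω i = 1 := by
  rw [sum_Om]
  simp only [QS_inl, QS_S, QS_V]
  have e : ∑ j, rhoOf C T Y j * vtx j i = rhoOf C T Y i := by
    unfold vtx
    simp
  rw [e]
  unfold rhoOf
  rw [sum_range3]
  ring

theorem QS_NL (TS : TabsSem C T) (hρ : ∀ i, 0 ≤ rhoOf C T Y i) : NL (QS C T Y) where
  nonneg := fun ω i => Qv_nonneg TS.ratio_pos hρ ω i
  norm := QS_norm

theorem cOf_div_nonneg (t : ℕ) : (0 : ℝ) ≤ (cOf C Y t : ℝ) / 2 ^ C.w := by positivity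

theorem QS_sum_F {C0 : ℝ} {F : (Fin 3 → ℝ) → ℝ} (hF : CH C0 F) (TS : TabsSem C T)
    (hρ : ∀ i, 0 ≤ rhoOf C T Y i) :
    ∑ ω, F (QS C T Y ω) = ∑ t ∈ range (T.labs.length + 3), ((cOf C Y t : ℝ) / 2 ^ C.w) * F (vT C T t)
      + ∑ i, rhoOf C T Y i * F (vtx i) := by
  rw [sum_Om, sum_range3, add_assoc]
  have e1 : ∀ t : Fin T.labs.length, F (QS C T Y (.inl t))
      = ((cOf C Y t : ℝ) / 2 ^ C.w) * F (vT C T t) := fun t => by
    have : QS C T Y (.inl t) = fun j => ((cOf C Y t : ℝ) / 2 ^ C.w) * vT C T t j := by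
      funext j
      exact QS_inl t j
    rw [this]
    exact hF.smul _ _ (cOf_div_nonneg _) (vT_nonneg TS (by have := t.2; omega))
  have e2 : ∀ i : Fin 3, F (QS C T Y (.inr (.inl i)))
      = ((cOf C Y (T.labs.length + i) : ℝ) / 2 ^ C.w) * F (vT C T (T.labs.length + i)) := fun i => by
    have : QS C T Y (.inr (.inl i))
        = fun j => ((cOf C Y (T.labs.length + i) : ℝ) / 2 ^ C.w) * vT C T (T.labs.length + i) j := by
      funext j
      exact QS_S i j
    rw [this]
    exact hF.smul _ _ (cOf_div_nonneg _) (vT_nonneg TS (by have := i.2; omega))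
  have e3 : ∀ i : Fin 3, F (QS C T Y (.inr (.inr i))) = rhoOf C T Y i * F (vtx i) := fun i => by
    have : QS C T Y (.inr (.inr i)) = fun j => rhoOf C T Y i * vtx i j := by
      funext j
      exact QS_V i j
    rw [this]
    exact hF.smul _ _ (hρ i) (vtx_nonneg i)
  simp only [e1, e2, e3]

/-! ### The sets of atoms -/

theorem sum_PS {A : Type*} [AddCommMonoid A] {Mt : ℕ} (g : Om Mt → A) :
    ∑ ω ∈ PS Mt, g ω = ∑ t : Fin Mt, g (.inl t) := by
  classical
  have e : PS Mt = (univ : Finset (Fin Mt)).map (Function.Embedding.inl) := by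
    ext ω
    rcases ω with t | i | i
    · simp [PS, setK, keepB]
    · simp only [PS, setK, mem_filter, mem_univ, true_and, mem_map, Function.Embedding.inl_apply,
        reduceCtorEq, and_false, exists_false, iff_false, not_forall]
      exact ⟨i, by simp [keepB]⟩
    · simp only [PS, setK, mem_filter, mem_univ, true_and, mem_map, Function.Embedding.inl_apply,
        reduceCtorEq, and_false, exists_false, iff_false, not_forall]
      exact ⟨i + 1, by revert i; simp [keepB]⟩
  rw [e, Finset.sum_map]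
  rfl

theorem sum_AS {A : Type*} [AddCommMonoid A] {Mt : ℕ} (g : Om Mt → A) (i : Fin 3) :
    ∑ ω ∈ AS Mt i, g ω = ∑ t : Fin Mt, g (.inl t) + g (.inr (.inl i)) := by
  classical
  have e : AS Mt i = insert (.inr (.inl i)) (PS Mt) := by
    ext ω
    rcases ω with t | j | j
    · simp [AS, PS, setK, keepB]
    · simp only [AS, PS, setK, mem_filter, mem_univ, true_and, mem_insert, Sum.inr.injEq,
        Sum.inl.injEq, keepB, reduceCtorEq, mem_insert, mem_singleton, forall_eq_or_imp, forall_eq,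
        decide_eq_true_eq, ne_eq]
      revert i j
      decide
    · simp only [AS, PS, setK, mem_filter, mem_univ, true_and, mem_insert, Sum.inr.injEq,
        reduceCtorEq, keepB, mem_singleton, forall_eq_or_imp, forall_eq, decide_eq_true_eq, false_or]
      revert i j
      decide
  rw [e, Finset.sum_insert, sum_PS, add_comm]
  simp [PS, setK, keepB]

end Burn

end

end Vale.Agent.P154.Hel
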