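import Vale.Agent.P154.Hel.Burn.Table

/-!
What a successful run of `checkStep` says, in ordinary arithmetic.
-/

namespace Vale.Agent.P154.Hel

open Finset

noncomputable section

namespace Burn

open TM

/-- The digits of a state. -/
def cOf (C : Cfg) (Y : ℕ) : ℕ → ℕ := fun t => dig (2 ^ C.w) Y t

/-- The labels. -/
def labI (T : Tabs) : ℕ → ℕ := fun t => T.labs.getD t 0

/-- The packed grid part of a state. -/
def encOf (C : Cfg) (T : Tabs) (Y : ℕ) : ℕ :=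
  ∑ t ∈ range T.labs.length, cOf C Y t * 2 ^ (labI T t * C.wx)

/-- The shift of the centre. -/
def ctrOf (C : Cfg) : ℕ := C.wx * (C.R * C.N + C.R)

/-- The big numbers for the four masks. -/
def XP (C : Cfg) (T : Tabs) (Y : ℕ) : Option (Fin 3) → ℕ
  | none => (encOf C T Y) ^ 4
  | some i => (encOf C T Y + cOf C Y (T.labs.length + i) * 2 ^ ctrOf C) ^ 4 - (encOf C T Y) ^ 4

/-- The accumulator. -/
def accOf (C : Cfg) (T : Tabs) (Y : ℕ) : ℕ :=
  sumO C.wx (C.N * C.wx) T.tb0 (XP C T Y none)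
    + sumO C.wx (C.N * C.wx) T.tb1 (XP C T Y (some 0))
    + sumO C.wx (C.N * C.wx) T.tb2 (XP C T Y (some 1))
    + sumO C.wx (C.N * C.wx) T.tb3 (XP C T Y (some 2))

/-- The total weight of the grid. -/
def c0Of (C : Cfg) (T : Tabs) (Y : ℕ) : ℕ := ∑ t ∈ range T.labs.length, cOf C Y t

/-- The scaled moments of the grid. -/
def nOf (C : Cfg) (T : Tabs) (Y : ℕ) : Fin 3 → ℕ :=
  ![c0Of C T Y * scOf C,
    ∑ t ∈ range T.labs.length, cOf C Y t * pw C.p C.q (8 * C.R) (labI T t / C.N + 3 * C.R),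
    ∑ t ∈ range T.labs.length, cOf C Y t * pw C.p C.q (8 * C.R) (labI T t % C.N + 3 * C.R)]

/-- The scale of the fourth powers. -/
def d4Of (C : Cfg) : ℕ := (scOf C * 2 ^ C.w) ^ 4

theorem pow_mulN (a w : ℕ) : 2 ^ (Nat.mul a w) = (2 ^ w) ^ a := by
  show 2 ^ (a * w) = _
  rw [mul_comm, pow_mul]

theorem dig_shr0 (w Y a : ℕ) :
    Nat.land (Nat.shiftRight Y (Nat.mul a w)) (Nat.pred (Nat.pow 2 w)) = dig (2 ^ w) Y a := by
  rw [land_pred, shr_eq]
  unfold dig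
  rw [pow_mulN]

theorem dig_shr1 (w Y a : ℕ) :
    Nat.land (Nat.shiftRight (Nat.shiftRight Y (Nat.mul a w)) w) (Nat.pred (Nat.pow 2 w))
      = dig (2 ^ w) Y (a + 1) := by
  rw [land_pred, shr_eq, shr_eq]
  unfold dig
  rw [Nat.div_div_eq_div_mul, pow_mulN, pow_succ]

theorem dig_shr2 (w Y a : ℕ) :
    Nat.land (Nat.shiftRight (Nat.shiftRight Y (Nat.mul a w)) (Nat.mul (nat_lit 2) w))
        (Nat.pred (Nat.pow 2 w))
      = dig (2 ^ w) Y (a + 2) := by
  rw [land_pred, shr_eq, shr_eq]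
  unfold dig
  rw [Nat.div_div_eq_div_mul, pow_mulN, pow_mulN, pow_add]

theorem dig_shr2' (w Y a : ℕ) :
    dig (2 ^ w) (Nat.shiftRight Y (Nat.mul a w)) 2 = dig (2 ^ w) Y (a + 2) := by
  rw [shr_eq]
  unfold dig
  rw [Nat.div_div_eq_div_mul, pow_mulN, pow_add]

theorem dig_addz (w Y a : ℕ) : dig w Y (a + 0) = dig w Y a := rfl

/-- The content of a successful step. -/
theorem checkStep_spec {C : Cfg} {T : Tabs} {Y Y' : ℕ} (h : checkStep C T Y Y' = true) :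
    (c0Of C T Y + (cOf C Y (T.labs.length + 0) + (cOf C Y (T.labs.length + 1)
        + cOf C Y (T.labs.length + 2)))) ^ 4 < 2 ^ C.wx
    ∧ (∀ t, t < T.labs.length →
        cOf C Y' t * 2 ^ (3 * C.w + C.wm) ≤ dig (2 ^ C.wa) (accOf C T Y) t)
    ∧ (cOf C Y' (T.labs.length + 0) * 2 ^ (3 * C.w + C.wm)
        ≤ dig (2 ^ C.wa) (accOf C T Y) (T.labs.length + 0)
          + vlF (scOf C) (d4Of C) (4 * C.w + C.wm - 1) (nOf C T Y 0)
              (cOf C Y (T.labs.length + 1)) (cOf C Y (T.labs.length + 2)))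
    ∧ (cOf C Y' (T.labs.length + 1) * 2 ^ (3 * C.w + C.wm)
        ≤ dig (2 ^ C.wa) (accOf C T Y) (T.labs.length + 1)
          + vlF (scOf C) (d4Of C) (4 * C.w + C.wm - 1) (nOf C T Y 1)
              (cOf C Y (T.labs.length + 2)) (cOf C Y (T.labs.length + 0)))
    ∧ (cOf C Y' (T.labs.length + 2) * 2 ^ (3 * C.w + C.wm)
        ≤ dig (2 ^ C.wa) (accOf C T Y) (T.labs.length + 2)
          + vlF (scOf C) (d4Of C) (4 * C.w + C.wm - 1) (nOf C T Y 2)
              (cOf C Y (T.labs.length + 0)) (cOf C Y (T.labs.length + 1))) := by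
  unfold checkStep at h
  simp only [Bool.and_eq_true, Nat.ble_eq, Nat.blt_eq, fc_eq, foldY_eq, dig_shr0, dig_shr1,
    dig_shr2, dig_shr2', runO_eq, zero_add] at h
  obtain ⟨h1, h2, h3, h4, h5⟩ := h
  have h2' := covL_spec _ _ _ _ _ _ h2
  simp only [Nat.add_eq, Nat.mul_eq, Nat.sub_eq, Nat.pow_eq, shl_eq,
    Nat.pred_eq_sub_one] at h1 h2' h3 h4 h5
  unfold cOf c0Of nOf
  simp only [accOf, XP, encOf, cOf, labI, ctrOf, d4Of, scOf, add_zero, Fin.isValue,
    Matrix.cons_val_zero, Matrix.cons_val_one, Matrix.cons_val, Matrix.head_cons, Nat.cast_ofNat,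
    Fin.val_zero, Fin.val_one, Fin.val_two]
  exact ⟨h1, h2', h3, h4, h5⟩

end Burn

end

end Vale.Agent.P154.Hel
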