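import Vale.Agent.P154.Hel.Burn.StepLaw

/-!
The rows as functions of the targets.
-/

namespace Vale.Agent.P154.Hel

open Finset

noncomputable section

namespace Burn

open TM

variable {C : Cfg} {T : Tabs}

/-- The coefficient of a target in a row. -/
def rowM (wa : ℕ) (r : Row) (t : ℕ) : ℕ :=
  (if r.s1 / wa = t then r.m1 else 0)
    + ((if r.s2 / wa = t then r.m2 else 0) + (if r.s3 / wa = t then r.m3 else 0))

/-- The coefficient of a target at a position of a table. -/
def MMn (C : Cfg) (tb : List (List Row)) (k t : ℕ) : ℕ :=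
  (rowAt C.wx (tb.getD (k / C.N) []) (k % C.N)).elim 0 fun r => rowM C.wa r t

theorem rowAt_mem {wx : ℕ} : ∀ {rows : List Row} {b : ℕ} {r : Row}, rowAt wx rows b = some r →
    r ∈ rows ∧ r.bs = b * wx
  | [], _, _, h => by simp [rowAt] at h
  | x :: xs, b, r, h => by
    unfold rowAt at h
    split_ifs at h with hx
    · have e : x = r := Option.some.inj h
      subst e
      exact ⟨List.mem_cons_self .., hx⟩
    · have := rowAt_mem h
      exact ⟨List.mem_cons_of_mem _ this.1, this.2⟩

/-- The number of a row, as a sum over the targets. -/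
theorem rowE_eq {r : Row} {wa B : ℕ} (h1 : r.s1 = (r.s1 / wa) * wa) (h2 : r.s2 = (r.s2 / wa) * wa)
    (h3 : r.s3 = (r.s3 / wa) * wa) (t1 : r.s1 / wa < B) (t2 : r.s2 / wa < B) (t3 : r.s3 / wa < B) :
    rowE r = ∑ t ∈ range B, rowM wa r t * (2 ^ wa) ^ t := by
  unfold rowE rowM
  simp only [add_mul, ite_mul, zero_mul, Finset.sum_add_distrib, Finset.sum_ite_eq, Finset.mem_range,
    t1, t2, t3, if_true]
  congr 1
  · conv_lhs => rw [h1, mul_comm (r.s1 / wa), pow_mul]
  congr 1
  · conv_lhs => rw [h2, mul_comm (r.s2 / wa), pow_mul]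
  · conv_lhs => rw [h3, mul_comm (r.s3 / wa), pow_mul]

theorem TabsSem.hN0 (TS : TabsSem C T) : 0 < C.N := by
  have := TS.ok.hN
  omega

theorem div_lt_of_nn {k N : ℕ} (hN : 0 < N) (hk : k < N * N) : k / N < N :=
  (Nat.div_lt_iff_lt_mul hN).mpr hk

/-- The value of a table, by targets. -/
theorem eTab_eq (TS : TabsSem C T) (m : Option (Fin 3)) {k : ℕ} (hk : k < C.N * C.N) :
    eTab C.wx C.N (tbOf T m) k
      = ∑ t ∈ range (T.labs.length + 3), MMn C (tbOf T m) k t * (2 ^ C.wa) ^ t := by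
  unfold eTab eAt MMn
  cases hr : rowAt C.wx ((tbOf T m).getD (k / C.N) []) (k % C.N) with
  | none => simp
  | some r =>
    have hS := TS.rows m (k / C.N) (div_lt_of_nn TS.hN0 hk) r (rowAt_mem hr).1
    simp only [Option.elim]
    exact rowE_eq hS.h1 hS.h2 hS.h3 hS.t1 hS.t2 hS.t3

theorem mm_nonneg (TS : TabsSem C T) (m : Option (Fin 3)) (k : ℕ) (j : Fin 3) :
    0 ≤ mm m (rayX (ratio C) C.R C.N k) j := by
  have h0 := rayX_nonneg (R := C.R) (N := C.N) TS.ratio_pos k
  rcases m with _ | i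
  · exact h0 j
  · exact maskV_nonneg h0 i j

theorem Tmm_nonneg (TS : TabsSem C T) (m : Option (Fin 3)) (k : ℕ) (j : Fin 3) :
    0 ≤ Hel.T (-(1 / 2)) (mm m (rayX (ratio C) C.R C.N k)) j :=
  T_nonneg (mm_nonneg TS m k) le_rfl (by norm_num) j

/-- The inequalities of a table, by targets. -/
theorem row_ineq (TS : TabsSem C T) (m : Option (Fin 3)) {k : ℕ} (hk : k < C.N * C.N) (j : Fin 3) :
    ∑ t ∈ range (T.labs.length + 3), ((MMn C (tbOf T m) k t : ℝ) / 2 ^ C.wm) * vT C T t j
      ≤ Hel.T (-(1 / 2)) (mm m (rayX (ratio C) C.R C.N k)) j := by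
  unfold MMn
  cases hr : rowAt C.wx ((tbOf T m).getD (k / C.N) []) (k % C.N) with
  | none =>
    simp only [Option.elim, Nat.cast_zero, zero_div, zero_mul, Finset.sum_const_zero]
    exact Tmm_nonneg TS m k j
  | some r =>
    have hS := TS.rows m (k / C.N) (div_lt_of_nn TS.hN0 hk) r (rowAt_mem hr).1
    have hb : r.bs / C.wx = k % C.N := by
      rw [(rowAt_mem hr).2]
      exact Nat.mul_div_cancel _ TS.hwx
    have hk' : k / C.N * C.N + r.bs / C.wx = k := by
      rw [hb, mul_comm]
      exact Nat.div_add_mod k C.N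
    have h := hS.ineq j
    rw [hk'] at h
    refine le_trans (le_of_eq ?_) h
    simp only [Option.elim, rowM]
    push_cast
    simp only [add_div, add_mul, Finset.sum_add_distrib]
    have e : ∀ (a : ℕ) (b : ℕ), a < T.labs.length + 3 →
        ∑ t ∈ range (T.labs.length + 3), ((if a = t then (b : ℝ) else 0) / 2 ^ C.wm) * vT C T t j
          = (b : ℝ) / 2 ^ C.wm * vT C T a j := by
      intro a b ha
      have : ∀ t, ((if a = t then (b : ℝ) else 0) / 2 ^ C.wm) * vT C T t j
          = if a = t then (b : ℝ) / 2 ^ C.wm * vT C T t j else 0 := fun t => by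
        split_ifs <;> simp
      simp only [this, Finset.sum_ite_eq, Finset.mem_range, ha, if_true]
    rw [e _ _ hS.t1, e _ _ hS.t2, e _ _ hS.t3]

end Burn

end

end Vale.Agent.P154.Hel
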